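import Vale.Agent.Lib.P161.Mono.Defs

namespace Vale.Agent.Lib.P161

open MeasureTheory ProbabilityTheory

variable {V : Type*} {G : SimpleGraph V}

/-- balls of a regular tree are finite -/
theorem finBalls_of_regTree {d : ℕ} (hG : IsRegTree d G) : FinBalls G := by
  have hconn : G.Connected := hG.1.1
  intro w k
  induction k with
  | zero =>
    refine (Set.finite_singleton w).subset ?_
    intro c hc
    have h0 : G.dist w c = 0 := Nat.le_zero.mp hc
    have := (hconn.dist_eq_zero_iff).mp h0
    exact this.symm
  | succ k ih =>
    have hfin : ({c | G.dist w c ≤ k} ∪ ⋃ u ∈ {c | G.dist w c ≤ k}, G.neighborSet u).Finite := by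
      refine ih.union (ih.biUnion ?_)
      intro u _
      exact Set.finite_of_encard_eq_coe (hG.2 u)
    refine hfin.subset ?_
    intro c hc
    have hc' : G.dist w c ≤ k + 1 := hc
    by_cases hk : G.dist w c ≤ k
    · exact Or.inl hk
    · right
      have hd : G.dist w c = k + 1 := by omega
      obtain ⟨p, hp⟩ := (hconn w c).exists_walk_length_eq_dist
      have hlen : p.reverse.length = k + 1 := by
        rw [SimpleGraph.Walk.length_reverse, hp, hd]
      generalize p.reverse = q at hlen
      cases q with
      | nil => simp at hlen
      | cons h q' =>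
        rename_i u
        have hq : q'.length = k := by
          simpa using hlen
        have hdu : G.dist w u ≤ k := by
          rw [SimpleGraph.dist_comm]
          exact (SimpleGraph.dist_le q').trans hq.le
        refine Set.mem_biUnion (x := u) hdu ?_
        exact h.symm

/-- a regular tree is countable -/
theorem countable_of_regTree {d : ℕ} (hG : IsRegTree d G) : Countable V := by
  have hconn : G.Connected := hG.1.1
  obtain ⟨w⟩ := hconn.nonempty
  have hb := finBalls_of_regTree hG
  rw [← Set.countable_univ_iff]
  have huniv : (Set.univ : Set V) = ⋃ k : ℕ, {c | G.dist w c ≤ k} := by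
    ext c
    simp only [Set.mem_univ, Set.mem_iUnion, true_iff]
    exact ⟨G.dist w c, show G.dist w c ≤ G.dist w c from le_refl _⟩
  rw [huniv]
  exact Set.countable_iUnion (fun k => (hb w k).countable)

end Vale.Agent.Lib.P161
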