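import Vale.Agent.Lib.P161.Mono.Rank

namespace Vale.Agent.Lib.P161

open MeasureTheory ProbabilityTheory

variable {V : Type*} {G : SimpleGraph V}
variable {e : V → ℕ} {s : unitInterval}

theorem exists_best (hfin : FinBalls G) (he : Function.Injective e) (A : V → unitInterval)
    (P : V × V → unitInterval) (v w : V) : ∃ c, IsBest G e s A P v w c := by
  classical
  set S : Set V := {c | (opG G s P).Reachable v c ∧ key G e A w c ≤ key G e A w v} with hS
  have hSfin : S.Finite := by
    refine ((finite_key_lt (e := e) hfin A w v).union (Set.finite_singleton v)).subset ?_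
    intro c hc
    rcases lt_or_eq_of_le hc.2 with h | h
    · exact Or.inl h
    · exact Or.inr (key_injective he A w h)
  have hSne : S.Nonempty := ⟨v, SimpleGraph.Reachable.refl v, le_refl _⟩
  obtain ⟨c, hcS, hmin⟩ := Set.exists_min_image S (key G e A w) hSfin hSne
  refine ⟨c, hcS.1, fun c' hc' => ?_⟩
  rcases le_or_gt (key G e A w c') (key G e A w v) with h | h
  · exact hmin c' ⟨hc', h⟩
  · exact hcS.2.trans h.le

theorem best_unique (he : Function.Injective e) {A : V → unitInterval}
    {P : V × V → unitInterval} {v w c c' : V} (h : IsBest G e s A P v w c)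
    (h' : IsBest G e s A P v w c') : c = c' :=
  key_injective he A w (le_antisymm (h.2 c' h'.1) (h'.2 c h.1))

theorem gate_eq_iff (hfin : FinBalls G) (he : Function.Injective e) (A : V → unitInterval)
    (P : V × V → unitInterval) (v w c : V) :
    gate G e s A P v w = c ↔ IsBest G e s A P v w c := by
  have hex : ∃ c, IsBest G e s A P v w c := exists_best hfin he A P v w
  have hg : IsBest G e s A P v w (gate G e s A P v w) := by
    unfold gate
    rw [dif_pos hex]
    exact hex.choose_spec
  constructor
  · intro h
    rw [← h]
    exact hg
  · intro h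
    exact best_unique he hg h

theorem gate_reach (hfin : FinBalls G) (he : Function.Injective e) (A : V → unitInterval)
    (P : V × V → unitInterval) (v w : V) : (opG G s P).Reachable v (gate G e s A P v w) :=
  ((gate_eq_iff hfin he A P v w _).mp rfl).1

theorem gate_congr (hfin : FinBalls G) (he : Function.Injective e) (A : V → unitInterval)
    (P : V × V → unitInterval) {v v' : V} (h : (opG G s P).Reachable v v') (w : V) :
    gate G e s A P v w = gate G e s A P v' w := by
  have h' : IsBest G e s A P v' w (gate G e s A P v' w) := (gate_eq_iff hfin he A P v' w _).mp rfl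
  refine (gate_eq_iff hfin he A P v w _).mpr ⟨h.trans h'.1, fun c' hc' => ?_⟩
  exact h'.2 c' (h.symm.trans hc')

theorem fld_congr (hfin : FinBalls G) (he : Function.Injective e) (A : V → unitInterval)
    (P Fd : V × V → unitInterval) {v v' : V} (h : (opG G s P).Reachable v v') :
    fld G e s A P Fd v = fld G e s A P Fd v' := by
  funext w
  unfold fld
  rw [gate_congr hfin he A P h w]

end Vale.Agent.Lib.P161
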