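import Vale.Agent.Lib.P161.Mono.ActKey
import Vale.Agent.Lib.P161.Mono.Best

namespace Vale.Agent.Lib.P161

open MeasureTheory ProbabilityTheory

variable {V : Type*} {G : SimpleGraph V}
variable {e : V → ℕ} {s : unitInterval}

/-- `g` as an isomorphism between the graphs of kept edges -/
private def opIso (g : G ≃g G) (P : V × V → unitInterval) :
    opG G s P ≃g opG G s (act2 g P) where
  toEquiv := g.toEquiv
  map_rel_iff' := by
    intro a b
    change (G.Adj (g a) (g b) ∧ P (g.symm (g a), g.symm (g b)) ≤ s ∧
      P (g.symm (g b), g.symm (g a)) ≤ s) ↔ (G.Adj a b ∧ P (a, b) ≤ s ∧ P (b, a) ≤ s)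
    rw [g.map_adj_iff, g.symm_apply_apply, g.symm_apply_apply]

theorem reach_act2 (g : G ≃g G) (P : V × V → unitInterval) (v c : V) :
    (opG G s (act2 g P)).Reachable (g v) (g c) ↔ (opG G s P).Reachable v c :=
  (opIso (s := s) g P).reachable_iff (u := v) (v := c)

theorem gate_act (hfin : FinBalls G) (he : Function.Injective e) (g : G ≃g G)
    {A : V → unitInterval} (hA : Function.Injective A) (P : V × V → unitInterval) (v w : V) :
    gate G e s (act g A) (act2 g P) (g v) (g w) = g (gate G e s A P v w) := by
  have hb : IsBest G e s A P v w (gate G e s A P v w) := (gate_eq_iff hfin he A P v w _).1 rfl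
  rw [gate_eq_iff hfin he]
  refine ⟨(reach_act2 g P v _).2 hb.1, ?_⟩
  intro c' hc'
  have h1 : c' = g (g.symm c') := (g.apply_symm_apply c').symm
  rw [h1] at hc' ⊢
  exact (key_le_act g hA w _ _).2 (hb.2 _ ((reach_act2 g P v _).1 hc'))

theorem fld_act (hfin : FinBalls G) (he : Function.Injective e) (g : G ≃g G)
    {A : V → unitInterval} (hA : Function.Injective A) (P Fd : V × V → unitInterval) (v : V) :
    fld G e s (act g A) (act2 g P) (act2 g Fd) (g v) = act g (fld G e s A P Fd v) := by
  funext w
  have h1 : gate G e s (act g A) (act2 g P) (g v) w = g (gate G e s A P v (g.symm w)) := by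
    have := gate_act (s := s) hfin he g hA P v (g.symm w)
    rwa [g.apply_symm_apply] at this
  change Fd (g.symm w, g.symm (gate G e s (act g A) (act2 g P) (g v) w))
    = Fd (g.symm w, gate G e s A P v (g.symm w))
  rw [h1, g.symm_apply_apply]

end Vale.Agent.Lib.P161
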