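import Vale.Agent.Lib.P161.Mono.Defs

namespace Vale.Agent.Lib.P161

open MeasureTheory ProbabilityTheory

variable {V : Type*} {G : SimpleGraph V}
variable {e : V → ℕ} {s : unitInterval}

private theorem dist_iso_le (g : G ≃g G) (u v : V) (h : G.Reachable u v) :
    G.dist (g u) (g v) ≤ G.dist u v := by
  obtain ⟨p, hp⟩ := h.exists_walk_length_eq_dist
  rw [← hp, ← SimpleGraph.Walk.length_map g.toHom p]
  exact SimpleGraph.dist_le (p.map g.toHom)

private theorem dist_iso (g : G ≃g G) (u v : V) : G.dist (g u) (g v) = G.dist u v := by
  by_cases h : G.Reachable u v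
  · apply le_antisymm (dist_iso_le g u v h)
    have h' : G.Reachable (g u) (g v) := h.map g.toHom
    have h2 := dist_iso_le g.symm (g u) (g v) h'
    simpa using h2
  · have h' : ¬ G.Reachable (g u) (g v) := by
      intro h2
      apply h
      have h3 := h2.map g.symm.toHom
      simpa using h3
    rw [SimpleGraph.dist_eq_zero_of_not_reachable h, SimpleGraph.dist_eq_zero_of_not_reachable h']

theorem key_lt_act (g : G ≃g G) {A : V → unitInterval} (hA : Function.Injective A) (w c' c : V) :
    key G e (act g A) (g w) (g c') < key G e (act g A) (g w) (g c) ↔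
      key G e A w c' < key G e A w c := by
  have h1 : ∀ f : V → ℕ, ¬ (A c' = A c ∧ f c' < f c) := by
    rintro f ⟨h, h2⟩
    rw [hA h] at h2
    exact lt_irrefl _ h2
  have h2 := h1 (fun x => e (g x))
  have h3 := h1 e
  have ha : ∀ x, act g A (g x) = A x := by
    intro x
    simp [act]
  unfold key
  simp only [Prod.Lex.toLex_lt_toLex, dist_iso, ha]
  simp only [h2, h3]

theorem key_le_act (g : G ≃g G) {A : V → unitInterval} (hA : Function.Injective A) (w c' c : V) :
    key G e (act g A) (g w) (g c') ≤ key G e (act g A) (g w) (g c) ↔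
      key G e A w c' ≤ key G e A w c := by
  rw [← not_lt, ← not_lt, key_lt_act g hA w c c']

theorem rk_act (g : G ≃g G) {A : V → unitInterval} (hA : Function.Injective A) (w c : V) :
    rk G e (act g A) (g w) (g c) = rk G e A w c := by
  unfold rk
  have hset : {c' | key G e (act g A) (g w) c' < key G e (act g A) (g w) (g c)}
      = g '' {c' | key G e A w c' < key G e A w c} := by
    ext x
    constructor
    · intro hx
      refine ⟨g.symm x, ?_, g.apply_symm_apply x⟩
      have hx' : key G e (act g A) (g w) (g (g.symm x)) < key G e (act g A) (g w) (g c) := by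
        rw [g.apply_symm_apply]
        exact hx
      exact (key_lt_act g hA w (g.symm x) c).mp hx'
    · rintro ⟨y, hy, rfl⟩
      exact (key_lt_act g hA w y c).mpr hy
  rw [hset, Set.ncard_image_of_injective _ g.injective]

end Vale.Agent.Lib.P161
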