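import Vale.Agent.Lib.P161.Mono.ActKey

namespace Vale.Agent.Lib.P161

open MeasureTheory ProbabilityTheory

variable {V : Type*} {G : SimpleGraph V}
variable {e : V → ℕ} {s : unitInterval}

theorem lab_actN (g : G ≃g G) (X : V × ℕ → unitInterval) (hA : Function.Injective (labA X)) :
    lab G e (actN g X) = actI g (lab G e X) := by
  have hrk : ∀ p : V × V, rk G e (act g (labA X)) p.1 p.2
      = rk G e (labA X) (g.symm p.1) (g.symm p.2) := by
    intro p
    have h := rk_act (e := e) g hA (g.symm p.1) (g.symm p.2)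
    rwa [g.apply_symm_apply, g.apply_symm_apply] at h
  have hAeq : labA (actN g X) = act g (labA X) := rfl
  refine Prod.ext rfl (Prod.ext ?_ ?_)
  · funext p
    show labR (actN g X) (p.1, 2 * rk G e (labA (actN g X)) p.1 p.2)
      = labR X (g.symm p.1, 2 * rk G e (labA X) (g.symm p.1) (g.symm p.2))
    rw [hAeq, hrk]
    rfl
  · funext p
    show labR (actN g X) (p.1, 2 * rk G e (labA (actN g X)) p.1 p.2 + 1)
      = labR X (g.symm p.1, 2 * rk G e (labA X) (g.symm p.1) (g.symm p.2) + 1)
    rw [hAeq, hrk]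
    rfl

theorem spl_actN (τ : unitInterval → (ℕ → unitInterval)) (g : G ≃g G) (U : V → unitInterval) :
    spl τ (act g U) = actN g (spl τ U) := by
  rfl

end Vale.Agent.Lib.P161
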