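import Vale.Agent.Lib.P161.Mono.Defs

namespace Vale.Agent.Lib.P161

open MeasureTheory ProbabilityTheory

variable {V : Type*} {G : SimpleGraph V}

theorem ae_injective [Countable V] : ∀ᵐ A ∂(iidLaw V), Function.Injective A := by
  have key : ∀ p : V × V, ∀ᵐ A ∂(iidLaw V), p.1 ≠ p.2 → A p.1 ≠ A p.2 := by
    rintro ⟨u, v⟩
    by_cases huv : u = v
    · exact Filter.Eventually.of_forall fun A h => absurd huv h
    · have hmap : (iidLaw V).map (fun A => (A u, A v)) =
          (volume : Measure unitInterval).prod volume :=
        Measure.infinitePi_map_eval_prod huv
      have hD : MeasurableSet {q : unitInterval × unitInterval | q.1 = q.2} :=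
        measurableSet_eq_fun measurable_fst measurable_snd
      have hnull : ((volume : Measure unitInterval).prod volume)
          {q : unitInterval × unitInterval | q.1 = q.2} = 0 := by
        rw [Measure.measure_prod_null hD]
        refine Filter.Eventually.of_forall fun x => ?_
        have e : Prod.mk x ⁻¹' {q : unitInterval × unitInterval | q.1 = q.2} = {x} := by
          ext y
          simp [eq_comm]
        show volume (Prod.mk x ⁻¹' {q : unitInterval × unitInterval | q.1 = q.2}) = 0
        rw [e]
        exact measure_singleton x
      have h0 : (iidLaw V) {A | A u = A v} = 0 := by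
        have h1 := Measure.map_apply (μ := iidLaw V) (f := fun A => (A u, A v)) (by fun_prop) hD
        rw [hmap, hnull] at h1
        exact h1.symm
      rw [ae_iff]
      refine measure_mono_null ?_ h0
      intro A hA
      by_contra hne
      exact hA fun _ => hne
  rw [← ae_all_iff] at key
  filter_upwards [key] with A hA u v huv
  by_contra hne
  exact hA (u, v) hne huv

end Vale.Agent.Lib.P161
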