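import Vale.Agent.Lib.P161.Mono.Defs

namespace Vale.Agent.Lib.P161

open MeasureTheory ProbabilityTheory

variable {V : Type*} {G : SimpleGraph V}

theorem blocks_integral {ι : Type*} {K : Type*} [Fintype K] {κ : K → Type*}
    (φ : (Σ k, κ k) → ι) (hφ : Function.Injective φ)
    (f : ∀ k, (κ k → unitInterval) → ℝ) (hf : ∀ k, Measurable (f k))
    (hb : ∀ k u, |f k u| ≤ 1) :
    ∫ ω, ∏ k, f k (fun g => ω (φ ⟨k, g⟩)) ∂(iidLaw ι) = ∏ k, ∫ u, f k u ∂(iidLaw (κ k)) := by
  have h1 : (iidLaw ι).map (fun ω (p : Σ k, κ k) => ω (φ p)) = iidLaw (Σ k, κ k) :=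
    Measure.map_infinitePi_infinitePi_of_inj (P := fun _ : ι => (volume : Measure unitInterval)) hφ
  have h2 : (iidLaw (Σ k, κ k)).map
      (MeasurableEquiv.piCurry (fun (k : K) (_ : κ k) => unitInterval)) =
      Measure.infinitePi (fun k => iidLaw (κ k)) :=
    Measure.infinitePi_map_piCurry (fun (k : K) (_ : κ k) => (volume : Measure unitInterval))
  have hm : Measurable (fun x : (∀ k, κ k → unitInterval) => ∏ k, f k (x k)) :=
    Finset.measurable_prod _ (fun k _ => (hf k).comp (measurable_pi_apply k))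
  have hr : Measurable (fun (ω : ι → unitInterval) (p : Σ k, κ k) => ω (φ p)) := by
    fun_prop
  have hm2 : Measurable (fun y : ((Σ k, κ k) → unitInterval) =>
      ∏ k, f k ((MeasurableEquiv.piCurry (fun (k : K) (_ : κ k) => unitInterval)) y k)) :=
    hm.comp (MeasurableEquiv.measurable _)
  have h3 : ∫ ω, ∏ k, f k (fun g => ω (φ ⟨k, g⟩)) ∂(iidLaw ι)
      = ∫ x, ∏ k, f k (x k) ∂(Measure.infinitePi (fun k => iidLaw (κ k))) := by
    rw [← h2, integral_map (MeasurableEquiv.measurable _).aemeasurable hm.aestronglyMeasurable,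
      ← h1, integral_map hr.aemeasurable hm2.aestronglyMeasurable]
    rfl
  rw [h3, Measure.infinitePi_eq_pi]
  exact integral_fintype_prod_eq_prod (μ := fun k => iidLaw (κ k)) f

end Vale.Agent.Lib.P161
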