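import Vale.Agent.Lib.P161.Mono.Best
import Vale.Agent.Lib.P161.Mono.Blocks

namespace Vale.Agent.Lib.P161

open MeasureTheory ProbabilityTheory

variable {V : Type*} {G : SimpleGraph V}
variable {e : V → ℕ} {s : unitInterval}

theorem core_factor (hfin : FinBalls G) (he : Function.Injective e)
    {Φ : (V → unitInterval) → V → Bool} (hΦ : Measurable Φ) (A : V → unitInterval)
    (P : V × V → unitInterval) (K : Finset V)
    (hK : ∀ k ∈ K, ∀ k' ∈ K, (opG G s P).Reachable k k' → k = k')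
    (f : V → (V → Bool) → ℝ) (hf : ∀ k, Measurable (f k)) (hb : ∀ k σ, |f k σ| ≤ 1) :
    ∫ Fd, ∏ k ∈ K, f k (Φ (fld G e s A P Fd k)) ∂(iidLaw (V × V)) =
      ∏ k ∈ K, ∫ σ, f k σ ∂((iidLaw V).map Φ) := by
  have hinj : Function.Injective (fun p : (Σ _ : (K : Type _), V) =>
      ((p.2, gate G e s A P (p.1 : V) p.2) : V × V)) := by
    rintro ⟨⟨k, hk⟩, w⟩ ⟨⟨k', hk'⟩, w'⟩ h
    simp only [Prod.mk.injEq] at h
    obtain ⟨h1, h2⟩ := h
    subst h1
    have r1 : (opG G s P).Reachable k (gate G e s A P k w) := gate_reach hfin he A P k w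
    have r2 : (opG G s P).Reachable k' (gate G e s A P k' w) := gate_reach hfin he A P k' w
    have r3 : (opG G s P).Reachable k k' := by
      rw [h2] at r1
      exact r1.trans r2.symm
    have hkk : k = k' := hK k hk k' hk' r3
    subst hkk
    rfl
  have key := blocks_integral (ι := V × V) (K := (K : Type _)) (κ := fun _ => V)
    (fun p => ((p.2, gate G e s A P (p.1 : V) p.2) : V × V)) hinj
    (fun k u => f (k : V) (Φ u)) (fun k => (hf k).comp hΦ) (fun k u => hb k (Φ u))
  have h1 : ∀ Fd : V × V → unitInterval, ∏ k ∈ K, f k (Φ (fld G e s A P Fd k)) =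
      ∏ k : (K : Type _), f (k : V) (Φ (fun g => Fd (g, gate G e s A P (k : V) g))) := by
    intro Fd
    rw [← Finset.prod_coe_sort K (fun k => f k (Φ (fld G e s A P Fd k)))]
    rfl
  have h2 : ∏ k ∈ K, ∫ σ, f k σ ∂((iidLaw V).map Φ) =
      ∏ k : (K : Type _), ∫ u, f (k : V) (Φ u) ∂(iidLaw V) := by
    rw [← Finset.prod_coe_sort K (fun k => ∫ σ, f k σ ∂((iidLaw V).map Φ))]
    refine Finset.prod_congr rfl (fun k _ => ?_)
    exact integral_map hΦ.aemeasurable (hf k).aestronglyMeasurable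
  simp only [h1]
  rw [h2]
  exact key

end Vale.Agent.Lib.P161
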