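import Vale.Agent.Lib.P161.Mul.Pair

/-!
# P161: monotonicity in theta, definitions

Edges are kept with probability `s * s`; every cluster of kept edges gets its own copy of the
labels: the label used at `w` by the cluster of `v` is indexed by `(w, gate v w)`, where `gate v w`
is a canonical vertex of the cluster of `v`.
-/

namespace Vale.Agent.Lib.P161

open MeasureTheory ProbabilityTheory

variable {V : Type*}

/-- The key of `c` as seen from `w`: distance, then label, then a fixed enumeration. -/
noncomputable def key (G : SimpleGraph V) (e : V → ℕ) (A : V → unitInterval) (w c : V) :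
    ℕ ×ₗ (unitInterval ×ₗ ℕ) :=
  toLex (G.dist w c, toLex (A c, e c))

/-- The rank of `c` as seen from `w`. -/
noncomputable def rk (G : SimpleGraph V) (e : V → ℕ) (A : V → unitInterval) (w c : V) : ℕ :=
  {c' | key G e A w c' < key G e A w c}.ncard

/-- The graph of kept edges. -/
def opG (G : SimpleGraph V) (s : unitInterval) (P : V × V → unitInterval) : SimpleGraph V where
  Adj u v := G.Adj u v ∧ P (u, v) ≤ s ∧ P (v, u) ≤ s
  symm := ⟨fun _ _ h => ⟨h.1.symm, h.2.2, h.2.1⟩⟩
  loopless := ⟨fun _ h => G.loopless.irrefl _ h.1⟩

/-- `c` is the vertex of the cluster of `v` with the smallest key as seen from `w`. -/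
def IsBest (G : SimpleGraph V) (e : V → ℕ) (s : unitInterval) (A : V → unitInterval)
    (P : V × V → unitInterval) (v w c : V) : Prop :=
  (opG G s P).Reachable v c ∧
    ∀ c', (opG G s P).Reachable v c' → key G e A w c ≤ key G e A w c'

open Classical in
/-- The canonical vertex of the cluster of `v` as seen from `w`. -/
noncomputable def gate (G : SimpleGraph V) (e : V → ℕ) (s : unitInterval) (A : V → unitInterval)
    (P : V × V → unitInterval) (v w : V) : V :=
  if h : ∃ c, IsBest G e s A P v w c then h.choose else v

/-- The label field used by the cluster of `v`. -/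
noncomputable def fld (G : SimpleGraph V) (e : V → ℕ) (s : unitInterval) (A : V → unitInterval)
    (P Fd : V × V → unitInterval) (v : V) : V → unitInterval :=
  fun w => Fd (w, gate G e s A P v w)

/-- The space of ideal labels: ranking labels, percolation labels, field labels. -/
abbrev Ideal (V : Type*) : Type _ :=
  (V → unitInterval) × (V × V → unitInterval) × (V × V → unitInterval)

/-- The law of the ideal labels. -/
noncomputable def idealLaw (V : Type*) : Measure (Ideal V) :=
  (iidLaw V).prod ((iidLaw (V × V)).prod (iidLaw (V × V)))

/-- The new factor map on ideal labels. -/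
noncomputable def Psi (G : SimpleGraph V) (e : V → ℕ) (s : unitInterval)
    (Φ : (V → unitInterval) → V → Bool) (x : Ideal V) : V → Bool :=
  fun v => Φ (fld G e s x.1 x.2.1 x.2.2 v) v

/-- ranking labels -/
def labA (X : V × ℕ → unitInterval) : V → unitInterval := fun v => X (v, 0)

/-- the remaining labels -/
def labR (X : V × ℕ → unitInterval) : V × ℕ → unitInterval := fun p => X (p.1, p.2 + 1)

/-- pair labels from ranking labels `A` and a stock `R` -/
noncomputable def pairLab (G : SimpleGraph V) (e : V → ℕ) (A : V → unitInterval)
    (R : V × ℕ → unitInterval) : (V × V → unitInterval) × (V × V → unitInterval) :=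
  (fun p => R (p.1, 2 * rk G e A p.1 p.2), fun p => R (p.1, 2 * rk G e A p.1 p.2 + 1))

/-- all ideal labels from the split labels -/
noncomputable def lab (G : SimpleGraph V) (e : V → ℕ) (X : V × ℕ → unitInterval) : Ideal V :=
  (labA X, pairLab G e (labA X) (labR X))

/-- diagonal action on fields indexed by pairs -/
def act2 {X : Type*} {G : SimpleGraph V} (g : G ≃g G) (Z : V × V → X) : V × V → X :=
  fun p => Z (g.symm p.1, g.symm p.2)

/-- action on split labels -/
def actN {X : Type*} {G : SimpleGraph V} (g : G ≃g G) (Z : V × ℕ → X) : V × ℕ → X :=
  fun p => Z (g.symm p.1, p.2)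

/-- action on ideal labels -/
def actI {G : SimpleGraph V} (g : G ≃g G) (x : Ideal V) : Ideal V :=
  (act g x.1, act2 g x.2.1, act2 g x.2.2)

/-- the sign of a spin -/
def sg (b : Bool) : ℝ := if b then 1 else -1

/-- the two end points of an edge -/
noncomputable def ends {G : SimpleGraph V} (e : G.edgeSet) : V × V := Quot.out e.1

/-- the vertices occurring in an observable -/
noncomputable def pts (G : SimpleGraph V) (o : V) : Option G.edgeSet → Multiset V
  | none => {o}
  | some e => {(ends e).1, (ends e).2}

/-- one vertex of an observable -/
noncomputable def base (G : SimpleGraph V) (o : V) : Option G.edgeSet → V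
  | none => o
  | some e => (ends e).1

/-- spin monomials -/
def mono (M : Multiset V) (σ : V → Bool) : ℝ := (M.map (fun x => sg (σ x))).prod

/-- the means of the observables of the free Ising measure -/
def mom (θ : ℝ) {E : Type*} : Option E → ℝ
  | none => 0
  | some _ => θ

open Classical in
/-- conditional means of the observables given the percolation labels -/
noncomputable def wt (G : SimpleGraph V) (s : unitInterval) (P : V × V → unitInterval) (θ : ℝ) :
    Option G.edgeSet → ℝ
  | none => 0
  | some e => if (opG G s P).Adj (ends e).1 (ends e).2 then θ else 0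

/-- finite balls -/
def FinBalls (G : SimpleGraph V) : Prop := ∀ (w : V) (k : ℕ), {c | G.dist w c ≤ k}.Finite

end Vale.Agent.Lib.P161
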