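import Vale.Agent.Lib.P161.Mono.Rank

namespace Vale.Agent.Lib.P161

open MeasureTheory ProbabilityTheory

variable {V : Type*} {G : SimpleGraph V}
variable {e : V → ℕ} {s : unitInterval}

private theorem key_lt_iff (A : V → unitInterval) (w c' c : V) :
    key G e A w c' < key G e A w c ↔
      G.dist w c' < G.dist w c ∨
        (G.dist w c' = G.dist w c ∧ (A c' < A c ∨ (A c' = A c ∧ e c' < e c))) := by
  unfold key
  rw [Prod.Lex.toLex_lt_toLex]
  simp only [Prod.Lex.toLex_lt_toLex]

theorem measurableSet_key_lt (w c' c : V) :
    MeasurableSet {A : V → unitInterval | key G e A w c' < key G e A w c} := by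
  have hset : {A : V → unitInterval | key G e A w c' < key G e A w c}
      = {_A : V → unitInterval | G.dist w c' < G.dist w c} ∪
        ({_A : V → unitInterval | G.dist w c' = G.dist w c} ∩
          ({A : V → unitInterval | A c' < A c} ∪
            (({A : V → unitInterval | A c' ≤ A c} ∩ {A : V → unitInterval | A c ≤ A c'}) ∩
              {_A : V → unitInterval | e c' < e c}))) := by
    ext A
    simp only [Set.mem_setOf_eq, Set.mem_union, Set.mem_inter_iff, key_lt_iff]
    constructor
    · rintro (h | ⟨h1, h2 | ⟨h2, h3⟩⟩)
      · exact Or.inl h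
      · exact Or.inr ⟨h1, Or.inl h2⟩
      · exact Or.inr ⟨h1, Or.inr ⟨⟨h2.le, h2.ge⟩, h3⟩⟩
    · rintro (h | ⟨h1, h2 | ⟨⟨h2, h2'⟩, h3⟩⟩)
      · exact Or.inl h
      · exact Or.inr ⟨h1, Or.inl h2⟩
      · exact Or.inr ⟨h1, Or.inr ⟨le_antisymm h2 h2', h3⟩⟩
  rw [hset]
  refine (MeasurableSet.const _).union ((MeasurableSet.const _).inter ?_)
  refine (measurableSet_lt (measurable_pi_apply c') (measurable_pi_apply c)).union ?_
  refine ((measurableSet_le (measurable_pi_apply c') (measurable_pi_apply c)).inter
    (measurableSet_le (measurable_pi_apply c) (measurable_pi_apply c'))).inter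
    (MeasurableSet.const _)

theorem measurableSet_key_le (w c c' : V) :
    MeasurableSet {A : V → unitInterval | key G e A w c ≤ key G e A w c'} := by
  have hset : {A : V → unitInterval | key G e A w c ≤ key G e A w c'}
      = {A : V → unitInterval | key G e A w c' < key G e A w c}ᶜ := by
    ext A
    simp only [Set.mem_setOf_eq, Set.mem_compl_iff, not_lt]
  rw [hset]
  exact (measurableSet_key_lt w c' c).compl

theorem measurable_rk (hfin : FinBalls G) (w c : V) :
    Measurable (fun A : V → unitInterval => rk G e A w c) := by
  classical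
  have hB := hfin w (G.dist w c)
  have hrk : (fun A : V → unitInterval => rk G e A w c)
      = fun A => ∑ c' ∈ hB.toFinset, if key G e A w c' < key G e A w c then 1 else 0 := by
    funext A
    unfold rk
    have hset : {c' | key G e A w c' < key G e A w c}
        = ↑(hB.toFinset.filter (fun c' => key G e A w c' < key G e A w c)) := by
      ext c'
      simp only [Set.mem_setOf_eq, Finset.coe_filter, Set.Finite.mem_toFinset]
      constructor
      · intro h
        refine ⟨?_, h⟩
        rcases (key_lt_iff A w c' c).1 h with h1 | h1
        · exact h1.le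
        · exact h1.1.le
      · intro h
        exact h.2
    rw [hset, Set.ncard_coe_finset, Finset.card_filter]
  rw [hrk]
  apply Finset.measurable_fun_sum
  intro c' _
  exact Measurable.ite (measurableSet_key_lt w c' c) measurable_const measurable_const

end Vale.Agent.Lib.P161
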