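import Vale.Agent.Lib.P161.Mono.Defs

namespace Vale.Agent.Lib.P161

open MeasureTheory ProbabilityTheory

variable {V : Type*} {G : SimpleGraph V}
variable {e : V → ℕ} {s : unitInterval}

private theorem measurableSet_adj (a b : V) :
    MeasurableSet {P : V × V → unitInterval | (opG G s P).Adj a b} := by
  by_cases h : G.Adj a b
  · have : {P : V × V → unitInterval | (opG G s P).Adj a b}
        = {P | P (a, b) ≤ s} ∩ {P | P (b, a) ≤ s} := by
      ext P
      simp [opG, h]
    rw [this]
    exact (measurableSet_le (measurable_pi_apply _) measurable_const).inter
      (measurableSet_le (measurable_pi_apply _) measurable_const)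
  · have : {P : V × V → unitInterval | (opG G s P).Adj a b} = ∅ := by
      ext P
      simp [opG, h]
    rw [this]
    exact MeasurableSet.empty

/-- the labels for which there is a chain of `n` kept edges from `v` to `c` -/
private def chainSet (G : SimpleGraph V) (s : unitInterval) (v : V) :
    ℕ → V → Set (V × V → unitInterval)
  | 0, c => {_P | v = c}
  | n + 1, c => ⋃ c', chainSet G s v n c' ∩ {P | (opG G s P).Adj c' c}

private theorem measurableSet_chainSet [Countable V] (v : V) (n : ℕ) (c : V) :
    MeasurableSet (chainSet G s v n c) := by
  induction n generalizing c with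
  | zero =>
    by_cases h : v = c
    · simp [chainSet, h]
    · simp [chainSet, h]
  | succ n ih =>
    simp only [chainSet]
    exact MeasurableSet.iUnion fun c' => (ih c').inter (measurableSet_adj c' c)

private theorem reach_of_chainSet (v : V) (n : ℕ) (c : V) (P : V × V → unitInterval)
    (h : P ∈ chainSet G s v n c) : (opG G s P).Reachable v c := by
  induction n generalizing c with
  | zero =>
    have : v = c := h
    rw [this]
  | succ n ih =>
    simp only [chainSet, Set.mem_iUnion, Set.mem_inter_iff, Set.mem_setOf_eq] at h
    obtain ⟨c', h1, h2⟩ := h
    exact (ih c' h1).trans h2.reachable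

theorem measurableSet_reach [Countable V] (v c : V) :
    MeasurableSet {P : V × V → unitInterval | (opG G s P).Reachable v c} := by
  have : {P : V × V → unitInterval | (opG G s P).Reachable v c}
      = ⋃ n, chainSet G s v n c := by
    ext P
    simp only [Set.mem_setOf_eq, Set.mem_iUnion]
    constructor
    · intro h
      rw [SimpleGraph.reachable_iff_reflTransGen] at h
      induction h with
      | refl => exact ⟨0, rfl⟩
      | tail _ hbc ih =>
        obtain ⟨n, hn⟩ := ih
        refine ⟨n + 1, ?_⟩
        simp only [chainSet, Set.mem_iUnion, Set.mem_inter_iff, Set.mem_setOf_eq]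
        exact ⟨_, hn, hbc⟩
    · rintro ⟨n, hn⟩
      exact reach_of_chainSet v n c P hn
  rw [this]
  exact MeasurableSet.iUnion fun n => measurableSet_chainSet v n c

end Vale.Agent.Lib.P161
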