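import Vale.Agent.Lib.P161.Mono.Best
import Vale.Agent.Lib.P161.Mono.MeasKey
import Vale.Agent.Lib.P161.Mono.MeasReach

namespace Vale.Agent.Lib.P161

open MeasureTheory ProbabilityTheory

variable {V : Type*} {G : SimpleGraph V}
variable {e : V → ℕ} {s : unitInterval}

theorem measurableSet_best [Countable V] (v w c : V) :
    MeasurableSet {x : (V → unitInterval) × (V × V → unitInterval) |
      IsBest G e s x.1 x.2 v w c} := by
  have h1 : MeasurableSet {x : (V → unitInterval) × (V × V → unitInterval) |
      (opG G s x.2).Reachable v c} :=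
    measurable_snd (measurableSet_reach (G := G) (s := s) v c)
  have h2 : ∀ c', MeasurableSet {x : (V → unitInterval) × (V × V → unitInterval) |
      (opG G s x.2).Reachable v c' → key G e x.1 w c ≤ key G e x.1 w c'} := by
    intro c'
    have ha : MeasurableSet {x : (V → unitInterval) × (V × V → unitInterval) |
        (opG G s x.2).Reachable v c'} :=
      measurable_snd (measurableSet_reach (G := G) (s := s) v c')
    have hb : MeasurableSet {x : (V → unitInterval) × (V × V → unitInterval) |
        key G e x.1 w c ≤ key G e x.1 w c'} :=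
      measurable_fst (measurableSet_key_le (G := G) (e := e) w c c')
    have : {x : (V → unitInterval) × (V × V → unitInterval) |
        (opG G s x.2).Reachable v c' → key G e x.1 w c ≤ key G e x.1 w c'}
        = {x | (opG G s x.2).Reachable v c'}ᶜ ∪ {x | key G e x.1 w c ≤ key G e x.1 w c'} := by
      ext x
      simp only [Set.mem_ofPred_eq, Set.mem_union, Set.mem_compl_iff]
      tauto
    rw [this]
    exact ha.compl.union hb
  have : {x : (V → unitInterval) × (V × V → unitInterval) | IsBest G e s x.1 x.2 v w c}
      = {x | (opG G s x.2).Reachable v c} ∩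
        ⋂ c', {x | (opG G s x.2).Reachable v c' → key G e x.1 w c ≤ key G e x.1 w c'} := by
    ext x
    simp only [IsBest, Set.mem_ofPred_eq, Set.mem_inter_iff, Set.mem_iInter]
  rw [this]
  exact h1.inter (MeasurableSet.iInter h2)

theorem measurable_fld [Countable V] (hfin : FinBalls G) (he : Function.Injective e) (v : V) :
    Measurable (fun x : Ideal V => fld G e s x.1 x.2.1 x.2.2 v) := by
  rw [measurable_pi_iff]
  intro w B hB
  have : (fun x : Ideal V => fld G e s x.1 x.2.1 x.2.2 v w) ⁻¹' B
      = ⋃ c, ({x : Ideal V | IsBest G e s x.1 x.2.1 v w c} ∩ {x : Ideal V | x.2.2 (w, c) ∈ B}) := by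
    ext x
    simp only [Set.mem_preimage, Set.mem_iUnion, Set.mem_inter_iff, Set.mem_ofPred_eq, fld]
    constructor
    · intro hx
      exact ⟨gate G e s x.1 x.2.1 v w, (gate_eq_iff hfin he x.1 x.2.1 v w _).1 rfl, hx⟩
    · rintro ⟨c, hc, hx⟩
      rw [(gate_eq_iff hfin he x.1 x.2.1 v w c).2 hc]
      exact hx
  rw [this]
  refine MeasurableSet.iUnion fun c => ?_
  have h1 : MeasurableSet {x : Ideal V | IsBest G e s x.1 x.2.1 v w c} := by
    have hm : Measurable (fun x : Ideal V => (x.1, x.2.1)) :=
      measurable_fst.prodMk (measurable_fst.comp measurable_snd)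
    exact hm (measurableSet_best (G := G) (e := e) (s := s) v w c)
  have h2 : MeasurableSet {x : Ideal V | x.2.2 (w, c) ∈ B} := by
    have hm : Measurable (fun x : Ideal V => x.2.2 (w, c)) :=
      (measurable_pi_apply (w, c)).comp (measurable_snd.comp measurable_snd)
    exact hm hB
  exact h1.inter h2

theorem measurable_Psi [Countable V] (hfin : FinBalls G) (he : Function.Injective e)
    {Φ : (V → unitInterval) → V → Bool} (hΦ : Measurable Φ) : Measurable (Psi G e s Φ) := by
  rw [measurable_pi_iff]
  intro v
  exact (measurable_pi_apply v).comp (hΦ.comp (measurable_fld hfin he v))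

end Vale.Agent.Lib.P161
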