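import Vale.Agent.Lib.P161.Mono.Defs

namespace Vale.Agent.Lib.P161

open MeasureTheory ProbabilityTheory

variable {V : Type*} {G : SimpleGraph V}

theorem map_skew {α β γ : Type*} [MeasurableSpace α] [MeasurableSpace β] [MeasurableSpace γ]
    (a : Measure α) (c : Measure γ) (b : Measure β) [IsProbabilityMeasure a]
    [IsProbabilityMeasure c] [IsProbabilityMeasure b] (h : α × γ → β) (hh : Measurable h)
    (H : ∀ x, c.map (fun r => h (x, r)) = b) :
    (a.prod c).map (fun p => (p.1, h p)) = a.prod b := by
  have hm : Measurable (fun p : α × γ => (p.1, h p)) := measurable_fst.prodMk hh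
  ext s hs
  rw [Measure.map_apply hm hs, Measure.prod_apply (hm hs), Measure.prod_apply hs]
  apply lintegral_congr
  intro x
  have hx : Measurable (fun r => h (x, r)) := hh.comp measurable_prodMk_left
  rw [← H x, Measure.map_apply hx (measurable_prodMk_left hs)]
  rfl

theorem map_skew_snd {α β γ : Type*} [MeasurableSpace α] [MeasurableSpace β] [MeasurableSpace γ]
    (a : Measure α) (c : Measure γ) (b : Measure β) [IsProbabilityMeasure a]
    [IsProbabilityMeasure c] [IsProbabilityMeasure b] (h : α × γ → β) (hh : Measurable h)
    (H : ∀ x, c.map (fun r => h (x, r)) = b) :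
    (a.prod c).map h = b := by
  have hm : Measurable (fun p : α × γ => (p.1, h p)) := measurable_fst.prodMk hh
  have h1 := map_skew a c b h hh H
  have h2 : ((a.prod c).map (fun p => (p.1, h p))).map Prod.snd = (a.prod c).map h := by
    rw [Measure.map_map measurable_snd hm]
    rfl
  rw [← h2, h1]
  simp

end Vale.Agent.Lib.P161
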