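import Vale.Agent.Lib.P161.Mono.Best
import Vale.Agent.Lib.P161.Mono.MeasFld
import Vale.Agent.Lib.P161.Mono.Skew

namespace Vale.Agent.Lib.P161

open MeasureTheory ProbabilityTheory

variable {V : Type*} {G : SimpleGraph V}
variable {e : V → ℕ} {s : unitInterval}

theorem map_fld [Countable V] (hfin : FinBalls G) (he : Function.Injective e) (v : V) :
    (idealLaw V).map (fun x => fld G e s x.1 x.2.1 x.2.2 v) = iidLaw V := by
  have i1 : IsProbabilityMeasure (iidLaw V) := by unfold iidLaw; infer_instance
  have i2 : IsProbabilityMeasure (iidLaw (V × V)) := by unfold iidLaw; infer_instance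
  have hm := measurable_fld (G := G) (e := e) (s := s) hfin he v
  unfold idealLaw
  refine map_skew_snd (iidLaw V) ((iidLaw (V × V)).prod (iidLaw (V × V))) (iidLaw V)
    (fun x : Ideal V => fld G e s x.1 x.2.1 x.2.2 v) hm ?_
  intro A
  refine map_skew_snd (iidLaw (V × V)) (iidLaw (V × V)) (iidLaw V)
    (fun r : (V × V → unitInterval) × (V × V → unitInterval) => fld G e s A r.1 r.2 v)
    (hm.comp (measurable_const.prodMk measurable_id)) ?_
  intro P
  have hinj : Function.Injective (fun w : V => (w, gate G e s A P v w)) := by
    intro a b hab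
    exact (Prod.mk.inj hab).1
  have := Measure.map_infinitePi_infinitePi_of_inj
    (P := fun _ : V × V => (volume : Measure unitInterval)) hinj
  unfold iidLaw
  exact this

end Vale.Agent.Lib.P161
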