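import Vale.Agent.Lib.P161.Mono.ActGate
import Vale.Agent.Lib.P161.Mono.AeInj
import Vale.Agent.Lib.P161.Mono.MapFld

namespace Vale.Agent.Lib.P161

open MeasureTheory ProbabilityTheory

variable {V : Type*} {G : SimpleGraph V}
variable {e : V → ℕ} {s : unitInterval}

theorem Psi_equivariant [Countable V] (hfin : FinBalls G) (he : Function.Injective e)
    {Φ : (V → unitInterval) → V → Bool} (hΦ : Measurable Φ)
    (heq : ∀ g : G ≃g G, ∀ᵐ U ∂(iidLaw V), Φ (act g U) = act g (Φ U)) (g : G ≃g G) :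
    ∀ᵐ x ∂(idealLaw V), Function.Injective x.1 ∧
      Psi G e s Φ (actI g x) = act g (Psi G e s Φ x) := by
  have hinj : ∀ᵐ x ∂(idealLaw V), Function.Injective x.1 := by
    unfold idealLaw
    exact Measure.quasiMeasurePreserving_fst.ae (ae_injective (V := V))
  have hv : ∀ v : V, ∀ᵐ x ∂(idealLaw V),
      Φ (act g (fld G e s x.1 x.2.1 x.2.2 v)) = act g (Φ (fld G e s x.1 x.2.1 x.2.2 v)) := by
    intro v
    have h1 := heq g
    rw [← map_fld (s := s) hfin he v] at h1
    exact ae_of_ae_map (measurable_fld hfin he v).aemeasurable h1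
  have hall := ae_all_iff.mpr hv
  filter_upwards [hinj, hall] with x hx1 hx2
  refine ⟨hx1, ?_⟩
  funext v'
  obtain ⟨v, rfl⟩ := g.surjective v'
  have h1 := fld_act (s := s) hfin he g hx1 x.2.1 x.2.2 v
  have h2 := hx2 v
  calc Psi G e s Φ (actI g x) (g v)
      = Φ (fld G e s (act g x.1) (act2 g x.2.1) (act2 g x.2.2) (g v)) (g v) := rfl
    _ = Φ (act g (fld G e s x.1 x.2.1 x.2.2 v)) (g v) := by rw [h1]
    _ = act g (Φ (fld G e s x.1 x.2.1 x.2.2 v)) (g v) := by rw [h2]
    _ = Φ (fld G e s x.1 x.2.1 x.2.2 v) v := by simp [act]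
    _ = act g (Psi G e s Φ x) (g v) := by simp [act, Psi]

end Vale.Agent.Lib.P161
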