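import Vale.Agent.Lib.P161.Mono.MonoBasic

namespace Vale.Agent.Lib.P161

open MeasureTheory ProbabilityTheory

variable {V : Type*} {G : SimpleGraph V}

theorem good_class [DecidableEq V] (r : V → V) (o : V) (S : Finset (Option G.edgeSet))
    (hS : ∀ i ∈ S, ∀ x ∈ pts G o i, r x = r (base G o i)) (k : V) (σ : V → Bool) :
    mono ((∑ i ∈ S, pts G o i).filter (fun x => r x = k)) σ =
      ∏ i ∈ S.filter (fun i => r (base G o i) = k), sg (obs G o i σ) := by
  classical
  induction S using Finset.induction_on with
  | empty => simp [mono]
  | insert a S ha ih =>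
    have ih' := ih fun i hi => hS i (Finset.mem_insert_of_mem hi)
    have ha' := hS a (Finset.mem_insert_self a S)
    rw [Finset.sum_insert ha, Multiset.filter_add, mono_add, ih', Finset.filter_insert]
    by_cases hk : r (base G o a) = k
    · rw [if_pos hk, Finset.prod_insert (fun h => ha (Finset.mem_filter.1 h).1)]
      congr 1
      rw [Multiset.filter_eq_self.2 (fun x hx => (ha' x hx).trans hk), sg_obs_eq_mono]
    · rw [if_neg hk]
      rw [Multiset.filter_eq_nil.2 (fun x hx h => hk ((ha' x hx).symm.trans h))]
      simp [mono]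

end Vale.Agent.Lib.P161
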