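import Vale.Agent.Lib.P161.Mono.Defs

namespace Vale.Agent.Lib.P161

open MeasureTheory ProbabilityTheory

variable {V : Type*} {G : SimpleGraph V}

theorem ends_spec (ed : G.edgeSet) : s((ends ed).1, (ends ed).2) = ed.1 := by
  have h : Quot.mk _ (ends ed) = ed.1 := Quot.out_eq ed.1
  exact h

theorem ends_adj (ed : G.edgeSet) : G.Adj (ends ed).1 (ends ed).2 := by
  have h := ed.2
  rw [← ends_spec ed] at h
  exact (SimpleGraph.mem_edgeSet G).mp h

theorem sg_mul_self (b : Bool) : sg b * sg b = 1 := by
  cases b <;> simp [sg]

theorem sg_obs_some (o : V) (ed : G.edgeSet) (σ : V → Bool) :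
    sg (obs G o (some ed) σ) = sg (σ (ends ed).1) * sg (σ (ends ed).2) := by
  classical
  have h0 : obs G o (some ed) σ = decide (∀ u ∈ ed.1, ∀ v ∈ ed.1, σ u = σ v) := by
    simp only [obs]
  have h : obs G o (some ed) σ = decide (σ (ends ed).1 = σ (ends ed).2) := by
    rw [h0, decide_eq_decide, ← ends_spec ed]
    simp only [Sym2.mem_iff, forall_eq_or_imp, forall_eq, true_and, and_true]
    constructor
    · intro h
      exact h.1
    · intro h
      exact ⟨h, h.symm⟩
  rw [h]
  cases h1 : σ (ends ed).1 <;> cases h2 : σ (ends ed).2 <;> simp [sg]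

theorem mono_add (M N : Multiset V) (σ : V → Bool) : mono (M + N) σ = mono M σ * mono N σ := by
  simp [mono, Multiset.map_add, Multiset.prod_add]

theorem sg_obs_eq_mono (o : V) (i : Option G.edgeSet) (σ : V → Bool) :
    sg (obs G o i σ) = mono (pts G o i) σ := by
  cases i with
  | none => simp [obs, pts, mono]
  | some ed =>
    rw [sg_obs_some]
    simp [pts, mono]

theorem chi_eq_mono (o : V) (S : Finset (Option G.edgeSet)) (σ : V → Bool) :
    ∏ i ∈ S, sg (obs G o i σ) = mono (∑ i ∈ S, pts G o i) σ := by
  classical
  induction S using Finset.induction_on with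
  | empty => simp [mono]
  | insert a S ha ih =>
    rw [Finset.prod_insert ha, Finset.sum_insert ha, mono_add, ih, sg_obs_eq_mono]

theorem abs_mono (M : Multiset V) (σ : V → Bool) : |mono M σ| = 1 := by
  induction M using Multiset.induction_on with
  | empty => simp [mono]
  | cons a M ih =>
    have h : mono (a ::ₘ M) σ = sg (σ a) * mono M σ := by simp [mono]
    rw [h, abs_mul, ih, mul_one]
    cases σ a <;> simp [sg]

theorem measurable_mono (M : Multiset V) : Measurable (mono M) := by
  induction M using Multiset.induction_on with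
  | empty =>
    have h : mono (0 : Multiset V) = fun _ => 1 := by
      funext σ
      simp [mono]
    rw [h]
    exact measurable_const
  | cons a M ih =>
    have h : mono (a ::ₘ M) = fun σ => sg (σ a) * mono M σ := by
      funext σ
      simp [mono]
    rw [h]
    have h1 : Measurable (fun σ : V → Bool => sg (σ a)) :=
      (measurable_of_countable sg).comp (measurable_pi_apply a)
    exact h1.mul ih

end Vale.Agent.Lib.P161
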