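import Vale.Agent.Lib.P161.Mono.Best
import Vale.Agent.Lib.P161.Mono.MonoBasic

namespace Vale.Agent.Lib.P161

open MeasureTheory ProbabilityTheory

variable {V : Type*} {G : SimpleGraph V}
variable {e : V → ℕ} {s : unitInterval}

theorem prod_fiberwise_aux [DecidableEq V] (r : V → V) (f : V → ℝ) (M : Multiset V)
    (S : Finset V) (hS : ∀ x ∈ M, r x ∈ S) :
    (M.map f).prod = ∏ k ∈ S, ((M.filter (fun x => r x = k)).map f).prod := by
  induction M using Multiset.induction_on with
  | empty => simp
  | cons a M ih =>
    have ih' := ih (fun x hx => hS x (Multiset.mem_cons_of_mem hx))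
    have ha : r a ∈ S := hS a (Multiset.mem_cons_self a M)
    have hk : ∀ k, (((a ::ₘ M).filter (fun x => r x = k)).map f).prod =
        (if r a = k then f a else 1) * ((M.filter (fun x => r x = k)).map f).prod := by
      intro k
      by_cases h : r a = k
      · rw [Multiset.filter_cons_of_pos (p := fun x => r x = k) _ h, Multiset.map_cons,
          Multiset.prod_cons, if_pos h]
      · rw [Multiset.filter_cons_of_neg (p := fun x => r x = k) _ h, if_neg h, one_mul]
    simp only [hk]
    rw [Finset.prod_mul_distrib, Finset.prod_ite_eq, if_pos ha, Multiset.map_cons,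
      Multiset.prod_cons, ih']

theorem mono_fiberwise [DecidableEq V] (r : V → V) (M : Multiset V) (τ : V → V → Bool) :
    (M.map (fun x => sg (τ (r x) x))).prod =
      ∏ k ∈ (M.map r).toFinset, mono (M.filter (fun x => r x = k)) (τ k) := by
  rw [prod_fiberwise_aux r (fun x => sg (τ (r x) x)) M (M.map r).toFinset
    (fun x hx => Multiset.mem_toFinset.mpr (Multiset.mem_map_of_mem r hx))]
  refine Finset.prod_congr rfl (fun k _ => ?_)
  unfold mono
  congr 1
  refine Multiset.map_congr rfl (fun x hx => ?_)
  rw [(Multiset.mem_filter.mp hx).2]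

theorem mono_Psi [DecidableEq V] (hfin : FinBalls G) (he : Function.Injective e)
    (Φ : (V → unitInterval) → V → Bool) (A : V → unitInterval) (P Fd : V × V → unitInterval)
    (o : V) (M : Multiset V) :
    mono M (Psi G e s Φ (A, P, Fd)) =
      ∏ k ∈ (M.map (fun x => gate G e s A P x o)).toFinset,
        mono (M.filter (fun x => gate G e s A P x o = k)) (Φ (fld G e s A P Fd k)) := by
  rw [← mono_fiberwise (fun x => gate G e s A P x o) M (fun k => Φ (fld G e s A P Fd k))]
  unfold mono Psi
  congr 1
  refine Multiset.map_congr rfl (fun x _ => ?_)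
  simp only
  rw [fld_congr hfin he A P Fd (gate_reach hfin he A P x o)]

end Vale.Agent.Lib.P161
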