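import Vale.Agent.Lib.P161.Mono.Defs

namespace Vale.Agent.Lib.P161

open MeasureTheory ProbabilityTheory

variable {V : Type*} {G : SimpleGraph V}

private theorem integral_sg_aux {Ω : Type*} [MeasurableSpace Ω] {μ : Measure Ω}
    [IsProbabilityMeasure μ] (Y : Ω → Bool) (mY : Measurable Y) (m : ℝ) (hm0 : 0 ≤ (1 + m) / 2)
    (hm : μ {ω | Y ω = true} = ENNReal.ofReal ((1 + m) / 2)) :
    ∫ ω, sg (Y ω) ∂μ = m := by
  have hset : MeasurableSet {ω | Y ω = true} := mY (MeasurableSet.of_discrete (s := {true}))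
  have h1 : (fun ω => sg (Y ω)) =
      fun ω => 2 * ({ω | Y ω = true}.indicator (1 : Ω → ℝ) ω) - 1 := by
    funext ω
    by_cases h : Y ω = true
    · have : ω ∈ {ω | Y ω = true} := h
      rw [Set.indicator_of_mem this]
      simp [sg, h]
      norm_num
    · have : ω ∉ {ω | Y ω = true} := h
      rw [Set.indicator_of_notMem this]
      simp [sg, h]
  have hint : Integrable ({ω | Y ω = true}.indicator (1 : Ω → ℝ)) μ :=
    (integrable_const (1 : ℝ)).indicator hset
  rw [h1, integral_sub (hint.const_mul 2) (integrable_const _), integral_const_mul,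
    integral_indicator_one hset, integral_const]
  simp only [measureReal_def, hm, ENNReal.toReal_ofReal hm0, measure_univ, ENNReal.toReal_one,
    smul_eq_mul]
  ring

private theorem moments_aux {Ω ι : Type*} [MeasurableSpace Ω] {μ : Measure Ω}
    [IsProbabilityMeasure μ] (X : ι → Ω → Bool) (hX : iIndepFun X μ) (mX : ∀ i, Measurable (X i))
    (m : ι → ℝ) (hm0 : ∀ i, 0 ≤ (1 + m i) / 2)
    (hm : ∀ i, μ {ω | X i ω = true} = ENNReal.ofReal ((1 + m i) / 2)) (S : Finset ι) :
    ∫ ω, ∏ i ∈ S, sg (X i ω) ∂μ = ∏ i ∈ S, m i := by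
  have hS : iIndepFun (fun i : S => X i) μ := hX.precomp Subtype.val_injective
  have h1 : ∀ ω, ∏ i ∈ S, sg (X i ω) = ∏ i : S, sg (X i ω) := fun ω =>
    (Finset.prod_coe_sort S (fun i => sg (X i ω))).symm
  simp only [h1]
  rw [hS.integral_fun_prod_comp (f := fun _ => sg) (fun i => (mX i).aemeasurable)
    (fun i => (measurable_of_countable sg).aestronglyMeasurable)]
  rw [← Finset.prod_coe_sort S m]
  apply Finset.prod_congr rfl
  intro i _
  exact integral_sg_aux (X i) (mX i) (m i) (hm0 i) (hm i)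

theorem moments_of_freeIsing {θ : ℝ} {ν : Measure (V → Bool)} (hν : IsFreeIsing G θ ν)
    (h0 : 0 ≤ θ) (o : V) (S : Finset (Option G.edgeSet)) :
    ∫ σ, ∏ i ∈ S, sg (obs G o i σ) ∂ν = ∏ i ∈ S, mom θ i := by
  have := hν.1
  obtain ⟨hind, hnone, hsome⟩ := hν.2 o
  apply moments_aux (obs G o) hind (measurable_obs G o) (fun i => mom θ i)
  · intro i
    cases i with
    | none => simp [mom]
    | some e =>
      simp only [mom]
      linarith
  · intro i
    cases i with
    | none =>
      rw [hnone]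
      simp [mom]
    | some e =>
      rw [hsome e]
      rfl

end Vale.Agent.Lib.P161
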