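import Vale.Agent.Lib.P161.Mono.Walk
import Vale.Agent.Lib.P161.Mono.IsingMoments

namespace Vale.Agent.Lib.P161

open MeasureTheory ProbabilityTheory

variable {V : Type*} {G : SimpleGraph V}

private theorem mono_cons (x : V) (M : Multiset V) (σ : V → Bool) :
    mono (x ::ₘ M) σ = sg (σ x) * mono M σ := by
  simp [mono]

private theorem mono_eq_list (hc : G.Connected) (o : V) (M : Multiset V) :
    ∃ L : List G.edgeSet, ∀ σ : V → Bool,
      mono M σ = sg (σ o) ^ (Multiset.card M) *
        (L.map (fun ed => sg (obs G o (some ed) σ))).prod := by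
  induction M using Multiset.induction_on with
  | empty => exact ⟨[], fun σ => by simp [mono]⟩
  | cons x M ih =>
    obtain ⟨L, hL⟩ := ih
    obtain ⟨Lx, hLx⟩ := walk_prod (G := G) o (hc.preconnected o x)
    refine ⟨Lx ++ L, fun σ => ?_⟩
    rw [mono_cons, hL σ, List.map_append, List.prod_append, ← hLx σ, Multiset.card_cons, pow_succ]
    have h1 : sg (σ o) * sg (σ o) = 1 := sg_mul_self _
    calc sg (σ x) * (sg (σ o) ^ Multiset.card M *
          (L.map (fun ed => sg (obs G o (some ed) σ))).prod)
        = (sg (σ o) * sg (σ o)) * (sg (σ x) * (sg (σ o) ^ Multiset.card M *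
          (L.map (fun ed => sg (obs G o (some ed) σ))).prod)) := by rw [h1, one_mul]
      _ = _ := by ring

open Classical in
private theorem list_eq_finset (o : V) (L : List G.edgeSet) :
    ∃ T : Finset G.edgeSet, ∀ σ : V → Bool,
      (L.map (fun ed => sg (obs G o (some ed) σ))).prod =
        ∏ ed ∈ T, sg (obs G o (some ed) σ) := by
  induction L with
  | nil => exact ⟨∅, fun σ => by simp⟩
  | cons e L ih =>
    obtain ⟨T, hT⟩ := ih
    by_cases he : e ∈ T
    · refine ⟨T.erase e, fun σ => ?_⟩
      rw [List.map_cons, List.prod_cons, hT σ, ← Finset.mul_prod_erase T _ he, ← mul_assoc,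
        sg_mul_self, one_mul]
    · refine ⟨insert e T, fun σ => ?_⟩
      rw [List.map_cons, List.prod_cons, hT σ, Finset.prod_insert he]

private theorem sg_pow_odd (b : Bool) {n : ℕ} (hn : Odd n) : sg b ^ n = sg b := by
  obtain ⟨k, rfl⟩ := hn
  rw [pow_succ, pow_mul, pow_two, sg_mul_self, one_pow, one_mul]

theorem odd_vanish {θ : ℝ} {ν : Measure (V → Bool)} (hν : IsFreeIsing G θ ν) (h0 : 0 ≤ θ)
    (hc : G.Connected) (M : Multiset V) (hM : Odd (Multiset.card M)) :
    ∫ σ, mono M σ ∂ν = 0 := by
  classical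
  obtain ⟨o⟩ := hc.nonempty
  obtain ⟨L, hL⟩ := mono_eq_list hc o M
  obtain ⟨T, hT⟩ := list_eq_finset (G := G) o L
  have hnone : (none : Option G.edgeSet) ∉ T.image some := by
    simp
  have key : ∀ σ : V → Bool, mono M σ =
      ∏ i ∈ insert (none : Option G.edgeSet) (T.image some), sg (obs G o i σ) := by
    intro σ
    rw [hL σ, hT σ, sg_pow_odd _ hM, Finset.prod_insert hnone,
      Finset.prod_image (fun a _ b _ h => Option.some_injective _ h)]
    rfl
  simp_rw [key]
  rw [moments_of_freeIsing hν h0 o, Finset.prod_insert hnone]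
  simp [mom]

end Vale.Agent.Lib.P161
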