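import Vale.Agent.Lib.P161.Mono.Test
import Vale.Agent.Lib.P161.Mono.Group

namespace Vale.Agent.Lib.P161

open MeasureTheory ProbabilityTheory

variable {V : Type*} {G : SimpleGraph V}
variable {s : unitInterval}

private theorem mono_const_on (N : Multiset V) (σ : V → Bool) (c : Bool)
    (h : ∀ x ∈ N, σ x = c) : mono N σ = sg c ^ Multiset.card N := by
  unfold mono
  rw [Multiset.map_congr rfl (fun x hx => by rw [h x hx]), Multiset.map_const',
    Multiset.prod_replicate]

private theorem sg_pow_even (c : Bool) {n : ℕ} (hn : Even n) : sg c ^ n = 1 := by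
  obtain ⟨m, rfl⟩ := hn
  rw [pow_add, ← mul_pow, sg_mul_self, one_pow]

/-- if all fibres are even and the colouring is constant on the fibres, the monomial is one -/
private theorem mono_eq_one [DecidableEq V] (r : V → V) (M : Multiset V) (σ : V → Bool)
    (hσ : ∀ x y, r x = r y → σ x = σ y)
    (hev : ∀ k, Even (Multiset.card (M.filter (fun x => r x = k)))) : mono M σ = 1 := by
  have h := mono_fiberwise r M (fun _ => σ)
  have h' : mono M σ = ∏ k ∈ (M.map r).toFinset, mono (M.filter (fun x => r x = k)) σ := h
  rw [h']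
  refine Finset.prod_eq_one ?_
  intro k hk
  rw [Multiset.mem_toFinset, Multiset.mem_map] at hk
  obtain ⟨x0, _, hx0⟩ := hk
  rw [mono_const_on _ σ (σ x0) ?_]
  · exact sg_pow_even _ (hev k)
  · intro x hx
    rw [Multiset.mem_filter] at hx
    exact hσ x x0 (hx.2.trans hx0.symm)

theorem parity [DecidableEq V] (hG : G.IsAcyclic) (P : V × V → unitInterval) (r : V → V)
    (hr : ∀ x y, r x = r y → (opG G s P).Reachable x y) (o : V)
    (S : Finset (Option G.edgeSet))
    (hbad : none ∈ S ∨ ∃ ed, some ed ∈ S ∧ ¬ (opG G s P).Adj (ends ed).1 (ends ed).2) :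
    ∃ k, Odd (Multiset.card ((∑ i ∈ S, pts G o i).filter (fun x => r x = k))) := by
  classical
  by_contra hcon
  have hcon := not_exists.mp hcon
  have hev : ∀ k, Even (Multiset.card ((∑ i ∈ S, pts G o i).filter (fun x => r x = k))) := by
    intro k
    exact Nat.not_odd_iff_even.mp (hcon k)
  -- it suffices to find a colouring constant on fibres with monomial minus one
  suffices hmain : ∃ σ : V → Bool, (∀ x y, r x = r y → σ x = σ y) ∧
      ∏ i ∈ S, sg (obs G o i σ) = -1 by
    obtain ⟨σ, hσ, hprod⟩ := hmain
    rw [chi_eq_mono, mono_eq_one r _ σ hσ hev] at hprod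
    norm_num at hprod
  rcases hbad with hnone | ⟨ed, hed, hnk⟩
  · refine ⟨fun _ => false, fun _ _ _ => rfl, ?_⟩
    rw [← Finset.mul_prod_erase S _ hnone]
    have h1 : sg (obs G o none (fun _ => false)) = -1 := by
      simp [obs, sg]
    have h2 : ∏ i ∈ S.erase none, sg (obs G o i (fun _ => false)) = 1 := by
      refine Finset.prod_eq_one ?_
      intro i hi
      rw [Finset.mem_erase] at hi
      cases i with
      | none => exact absurd rfl hi.1
      | some ed' =>
        rw [sg_obs_some]
        exact sg_mul_self _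
    rw [h1, h2]; norm_num
  · obtain ⟨σ, hσo, hσuv, hσ⟩ := exists_test hG (ends_adj ed) o
    have hstep : ∀ x y, (opG G s P).Adj x y → σ x = σ y := by
      intro x y hxy
      refine hσ x y hxy.1 ?_
      intro heq
      rw [Sym2.eq_iff] at heq
      rcases heq with ⟨h1, h2⟩ | ⟨h1, h2⟩
      · exact hnk (h1 ▸ h2 ▸ hxy)
      · exact hnk (h1 ▸ h2 ▸ hxy.symm)
    have hreach : ∀ x y, (opG G s P).Reachable x y → σ x = σ y := by
      intro x y hxy
      obtain ⟨w⟩ := hxy
      induction w with
      | nil => rfl
      | cons h _ ih => exact (hstep _ _ h).trans ih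
    refine ⟨σ, fun x y hxy => hreach x y (hr x y hxy), ?_⟩
    rw [← Finset.mul_prod_erase S _ hed]
    have h1 : sg (obs G o (some ed) σ) = -1 := by
      rw [sg_obs_some]
      revert hσuv
      cases σ (ends ed).1 <;> cases σ (ends ed).2 <;> simp [sg]
    have h2 : ∏ i ∈ S.erase (some ed), sg (obs G o i σ) = 1 := by
      refine Finset.prod_eq_one ?_
      intro i hi
      rw [Finset.mem_erase] at hi
      cases i with
      | none => simp [obs, sg, hσo]
      | some ed' =>
        rw [sg_obs_some]
        have hne : s((ends ed').1, (ends ed').2) ≠ s((ends ed).1, (ends ed).2) := by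
          rw [ends_spec, ends_spec]
          intro h
          exact hi.1 (congrArg some (Subtype.ext h))
        rw [hσ _ _ (ends_adj ed') hne]
        exact sg_mul_self _
    rw [h1, h2]; norm_num

end Vale.Agent.Lib.P161
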