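import Vale.Agent.Lib.P161.Mono.Core
import Vale.Agent.Lib.P161.Mono.Group
import Vale.Agent.Lib.P161.Mono.Parity
import Vale.Agent.Lib.P161.Mono.Good
import Vale.Agent.Lib.P161.Mono.Odd

namespace Vale.Agent.Lib.P161

open MeasureTheory ProbabilityTheory

variable {V : Type*} {G : SimpleGraph V}
variable {e : V → ℕ} {s : unitInterval}

theorem inner_value (hG : G.IsTree) (hfin : FinBalls G) (he : Function.Injective e)
    {Φ : (V → unitInterval) → V → Bool} (hΦ : Measurable Φ) {θ : ℝ} (h0 : 0 ≤ θ)
    (hν : IsFreeIsing G θ ((iidLaw V).map Φ)) (A : V → unitInterval) (P : V × V → unitInterval)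
    (o : V) (S : Finset (Option G.edgeSet)) :
    ∫ Fd, ∏ i ∈ S, sg (obs G o i (Psi G e s Φ (A, P, Fd))) ∂(iidLaw (V × V)) =
      ∏ i ∈ S, wt G s P θ i := by
  have : DecidableEq V := Classical.decEq V
  have hrr : ∀ x y, gate G e s A P x o = gate G e s A P y o → (opG G s P).Reachable x y := by
    intro x y hxy
    have h1 := gate_reach (s := s) hfin he A P x o
    have h2 := gate_reach (s := s) hfin he A P y o
    rw [← hxy] at h2
    exact h1.trans h2.symm
  have hrc : ∀ x y, (opG G s P).Reachable x y → gate G e s A P x o = gate G e s A P y o :=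
    fun x y h => gate_congr hfin he A P h o
  have h1 : ∀ Fd, ∏ i ∈ S, sg (obs G o i (Psi G e s Φ (A, P, Fd))) =
      ∏ k ∈ ((∑ i ∈ S, pts G o i).map (fun x => gate G e s A P x o)).toFinset,
        mono ((∑ i ∈ S, pts G o i).filter (fun x => gate G e s A P x o = k))
          (Φ (fld G e s A P Fd k)) := by
    intro Fd
    rw [chi_eq_mono, mono_Psi hfin he]
  simp_rw [h1]
  have hK : ∀ k ∈ ((∑ i ∈ S, pts G o i).map (fun x => gate G e s A P x o)).toFinset,
      ∀ k' ∈ ((∑ i ∈ S, pts G o i).map (fun x => gate G e s A P x o)).toFinset,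
      (opG G s P).Reachable k k' → k = k' := by
    intro k hk k' hk' hreach
    rw [Multiset.mem_toFinset, Multiset.mem_map] at hk hk'
    obtain ⟨x, _, rfl⟩ := hk
    obtain ⟨x', _, rfl⟩ := hk'
    apply hrc
    exact (gate_reach (s := s) hfin he A P x o).trans
      (hreach.trans (gate_reach (s := s) hfin he A P x' o).symm)
  rw [core_factor hfin he hΦ A P _ hK
    (fun k σ => mono ((∑ i ∈ S, pts G o i).filter (fun x => gate G e s A P x o = k)) σ)
    (fun k => measurable_mono _) (fun k σ => (abs_mono _ _).le)]
  by_cases hbad : none ∈ S ∨ ∃ ed, some ed ∈ S ∧ ¬ (opG G s P).Adj (ends ed).1 (ends ed).2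
  · obtain ⟨k, hk⟩ := parity hG.isAcyclic P (fun x => gate G e s A P x o) hrr o S hbad
    have hkK : k ∈ ((∑ i ∈ S, pts G o i).map (fun x => gate G e s A P x o)).toFinset := by
      have hpos : 0 < Multiset.card
          ((∑ i ∈ S, pts G o i).filter (fun x => gate G e s A P x o = k)) := hk.pos
      obtain ⟨x, hx⟩ := Multiset.card_pos_iff_exists_mem.1 hpos
      rw [Multiset.mem_filter] at hx
      rw [Multiset.mem_toFinset, Multiset.mem_map]
      exact ⟨x, hx.1, hx.2⟩
    rw [Finset.prod_eq_zero hkK (odd_vanish hν h0 hG.connected _ hk)]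
    symm
    rcases hbad with h | ⟨ed, hed, hnot⟩
    · exact Finset.prod_eq_zero h rfl
    · exact Finset.prod_eq_zero hed (by simp [wt, hnot])
  · push Not at hbad
    have hS : ∀ i ∈ S, ∀ x ∈ pts G o i,
        gate G e s A P x o = gate G e s A P (base G o i) o := by
      intro i hi x hx
      cases i with
      | none => exact absurd hi hbad.1
      | some ed =>
        simp only [pts, Multiset.insert_eq_cons, Multiset.mem_cons, Multiset.mem_singleton] at hx
        rcases hx with rfl | rfl
        · rfl
        · exact hrc _ _ (hbad.2 ed hi).reachable.symm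
    have h2 : ∀ k, ∫ σ, mono ((∑ i ∈ S, pts G o i).filter
        (fun x => gate G e s A P x o = k)) σ ∂((iidLaw V).map Φ) =
        ∏ i ∈ S.filter (fun i => gate G e s A P (base G o i) o = k), mom θ i := by
      intro k
      simp_rw [good_class (fun x => gate G e s A P x o) o S hS k]
      exact moments_of_freeIsing hν h0 o _
    simp_rw [h2]
    rw [Finset.prod_fiberwise_of_maps_to (g := fun i => gate G e s A P (base G o i) o)]
    · apply Finset.prod_congr rfl
      intro i hi
      cases i with
      | none => exact absurd hi hbad.1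
      | some ed => simp [mom, wt, hbad.2 ed hi]
    · intro i hi
      rw [Multiset.mem_toFinset, Multiset.mem_map]
      refine ⟨base G o i, ?_, rfl⟩
      rw [Multiset.mem_sum]
      refine ⟨i, hi, ?_⟩
      cases i with
      | none => simp [pts, base]
      | some ed => simp [pts, base]

end Vale.Agent.Lib.P161
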