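import Vale.Agent.Lib.P161.Mono.Defs

namespace Vale.Agent.Lib.P161

open MeasureTheory ProbabilityTheory

variable {V : Type*} {G : SimpleGraph V}

open Classical in
/-- constant coefficient of the indicator of a set of spins -/
private noncomputable def cA (B : Set Bool) : ℝ :=
  ((if true ∈ B then 1 else 0) + (if false ∈ B then 1 else 0)) / 2

open Classical in
/-- sign coefficient of the indicator of a set of spins -/
private noncomputable def cB (B : Set Bool) : ℝ :=
  ((if true ∈ B then 1 else 0) - (if false ∈ B then 1 else 0)) / 2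

private lemma ind_eq (B : Set Bool) (b : Bool) :
    B.indicator (fun _ => (1 : ℝ)) b = cA B + cB B * sg b := by
  classical
  cases b <;> by_cases h1 : true ∈ B <;> by_cases h2 : false ∈ B <;>
    simp [cA, cB, sg, h1, h2, Set.indicator] <;> norm_num

private lemma integrable_prod_sg {Ω ι : Type*} [MeasurableSpace Ω] (μ : Measure Ω)
    [IsProbabilityMeasure μ] (X : ι → Ω → Bool) (hX : ∀ i, Measurable (X i)) (T : Finset ι) :
    Integrable (fun ω => ∏ i ∈ T, sg (X i ω)) μ := by
  have hm : Measurable (fun ω => ∏ i ∈ T, sg (X i ω)) := by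
    apply Finset.measurable_prod
    intro i _
    exact (Measurable.of_discrete (f := sg)).comp (hX i)
  refine Integrable.of_bound hm.aestronglyMeasurable 1 (Filter.Eventually.of_forall ?_)
  intro ω
  rw [Real.norm_eq_abs, Finset.abs_prod]
  apply le_of_eq
  apply Finset.prod_eq_one
  intro i _
  cases X i ω <;> simp [sg]

private lemma real_inter {Ω ι : Type*} [MeasurableSpace Ω] (μ : Measure Ω)
    [IsProbabilityMeasure μ] (X : ι → Ω → Bool) (hX : ∀ i, Measurable (X i)) (m : ι → ℝ)
    (h : ∀ S : Finset ι, ∫ ω, ∏ i ∈ S, sg (X i ω) ∂μ = ∏ i ∈ S, m i)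
    (S : Finset ι) (B : ι → Set Bool) :
    μ.real (⋂ i ∈ S, X i ⁻¹' B i) = ∏ i ∈ S, (cA (B i) + cB (B i) * m i) := by
  classical
  have h1 : ∀ ω, (⋂ i ∈ S, X i ⁻¹' B i).indicator (fun _ => (1 : ℝ)) ω
      = ∏ i ∈ S, (cA (B i) + cB (B i) * sg (X i ω)) := by
    intro ω
    rw [Finset.prod_congr rfl (fun i _ => (ind_eq (B i) (X i ω)).symm)]
    by_cases hω : ω ∈ ⋂ i ∈ S, X i ⁻¹' B i
    · rw [Set.indicator_of_mem hω]
      symm
      apply Finset.prod_eq_one
      intro i hi
      have : X i ω ∈ B i := by simpa using (Set.mem_iInter₂.mp hω i hi)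
      rw [Set.indicator_of_mem this]
    · rw [Set.indicator_of_notMem hω]
      symm
      simp only [Set.mem_iInter, not_forall] at hω
      obtain ⟨i, hi, hiB⟩ := hω
      apply Finset.prod_eq_zero hi
      rw [Set.indicator_of_notMem]
      exact hiB
  have hmeas : MeasurableSet (⋂ i ∈ S, X i ⁻¹' B i) := by
    apply Finset.measurableSet_biInter
    intro i _
    exact hX i (MeasurableSet.of_discrete)
  have h2 : μ.real (⋂ i ∈ S, X i ⁻¹' B i)
      = ∫ ω, (⋂ i ∈ S, X i ⁻¹' B i).indicator (fun _ => (1 : ℝ)) ω ∂μ := by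
    rw [integral_indicator hmeas]
    simp
  rw [h2]
  simp_rw [h1, Finset.prod_add, Finset.prod_mul_distrib]
  rw [integral_finsetSum]
  · apply Finset.sum_congr rfl
    intro T _
    rw [integral_const_mul, integral_const_mul, h]
  · intro T _
    exact ((integrable_prod_sg μ X hX _).const_mul _).const_mul _

/-- product moments of signs determine independence and the marginals -/
theorem indep_of_moments {Ω ι : Type*} [MeasurableSpace Ω] (μ : Measure Ω)
    [IsProbabilityMeasure μ] (X : ι → Ω → Bool) (hX : ∀ i, Measurable (X i)) (m : ι → ℝ)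
    (h : ∀ S : Finset ι, ∫ ω, ∏ i ∈ S, sg (X i ω) ∂μ = ∏ i ∈ S, m i) :
    iIndepFun X μ ∧ ∀ i, μ {ω | X i ω = true} = ENNReal.ofReal ((1 + m i) / 2) := by
  classical
  have hone : ∀ (i : ι) (B : Set Bool), μ.real (X i ⁻¹' B) = cA B + cB B * m i := by
    intro i B
    have := real_inter μ X hX m h {i} (fun _ => B)
    simpa using this
  constructor
  · rw [iIndepFun_iff_measure_inter_preimage_eq_mul]
    intro S B _
    have e1 : μ (⋂ i ∈ S, X i ⁻¹' B i) = ENNReal.ofReal (μ.real (⋂ i ∈ S, X i ⁻¹' B i)) := by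
      rw [ofReal_measureReal]
    have e2 : ∀ i, μ (X i ⁻¹' B i) = ENNReal.ofReal (μ.real (X i ⁻¹' B i)) := by
      intro i
      rw [ofReal_measureReal]
    rw [e1, Finset.prod_congr rfl (fun i _ => e2 i),
      ← ENNReal.ofReal_prod_of_nonneg (fun i _ => measureReal_nonneg), real_inter μ X hX m h S B]
    congr 1
    apply Finset.prod_congr rfl
    intro i _
    rw [hone]
  · intro i
    have e : {ω | X i ω = true} = X i ⁻¹' {true} := by
      ext ω
      simp
    rw [e, ← ofReal_measureReal (μ := μ) (s := X i ⁻¹' {true}), hone]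
    congr 1
    simp [cA, cB]
    ring

end Vale.Agent.Lib.P161
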