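import Vale.Agent.Lib.P161.Mono.MonoBasic

namespace Vale.Agent.Lib.P161

open MeasureTheory ProbabilityTheory

variable {V : Type*} {G : SimpleGraph V}
variable {s : unitInterval}

theorem volume_le (s : unitInterval) :
    (volume : Measure unitInterval) {x | x ≤ s} = ENNReal.ofReal s := by
  have : {x : unitInterval | x ≤ s} = Set.Iic s := rfl
  rw [this, unitInterval.volume_Iic]

open Classical in
/-- the two oriented versions of an edge -/
private noncomputable def pr (e : G.edgeSet) : Finset (V × V) := {ends e, (ends e).swap}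

private theorem ends_ne_swap (e : G.edgeSet) : ends e ≠ (ends e).swap := by
  intro h
  have h1 : (ends e).1 = (ends e).2 := congrArg Prod.fst h
  exact (ends_adj e).ne h1

private theorem edge_of_mem_pr {e : G.edgeSet} {j : V × V} (hj : j ∈ pr e) :
    s(j.1, j.2) = e.1 := by
  classical
  rw [pr, Finset.mem_insert, Finset.mem_singleton] at hj
  rcases hj with rfl | rfl
  · exact ends_spec e
  · rw [← ends_spec e]
    exact Sym2.eq_swap

private theorem pr_disj (S' : Finset G.edgeSet) :
    (S' : Set G.edgeSet).PairwiseDisjoint (pr (G := G)) := by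
  classical
  intro e _ e' _ hne
  rw [Function.onFun, Finset.disjoint_left]
  intro j hj hj'
  exact hne (Subtype.ext ((edge_of_mem_pr hj).symm.trans (edge_of_mem_pr hj')))

theorem outer_value (θ : ℝ) (S : Finset (Option G.edgeSet)) :
    ∫ P, ∏ i ∈ S, wt G s P θ i ∂(iidLaw (V × V)) = ∏ i ∈ S, mom ((s : ℝ) * s * θ) i := by
  classical
  by_cases hn : none ∈ S
  · have h1 : ∀ P, ∏ i ∈ S, wt G s P θ i = 0 := fun P => Finset.prod_eq_zero hn rfl
    have h2 : ∏ i ∈ S, mom ((s : ℝ) * s * θ) i = 0 := Finset.prod_eq_zero hn rfl
    simp [h1, h2]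
  · set S' : Finset G.edgeSet := S.eraseNone with hS'
    have hS : S = S'.map Function.Embedding.some := by
      rw [hS', Finset.map_some_eraseNone, Finset.erase_eq_of_notMem hn]
    rw [hS]
    simp only [Finset.prod_map, Function.Embedding.some_apply]
    set J : Finset (V × V) := S'.biUnion pr with hJ
    have hpt : ∀ P : V × V → unitInterval, ∏ e ∈ S', wt G s P θ (some e) =
        (Set.pi (J : Set (V × V)) (fun _ => Set.Iic s)).indicator (fun _ => θ ^ S'.card) P := by
      intro P
      by_cases hP : P ∈ Set.pi (J : Set (V × V)) (fun _ => Set.Iic s)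
      · rw [Set.indicator_of_mem hP, ← Finset.prod_const]
        refine Finset.prod_congr rfl fun e he => ?_
        have h1 : P (ends e) ≤ s :=
          hP (ends e) (Finset.mem_coe.2 (Finset.mem_biUnion.2 ⟨e, he, by simp [pr]⟩))
        have h2 : P (ends e).swap ≤ s :=
          hP (ends e).swap (Finset.mem_coe.2 (Finset.mem_biUnion.2 ⟨e, he, by simp [pr]⟩))
        have : (opG G s P).Adj (ends e).1 (ends e).2 := ⟨ends_adj e, h1, h2⟩
        simp [wt, this]
      · rw [Set.indicator_of_notMem hP]
        rw [Set.mem_pi] at hP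
        push Not at hP
        obtain ⟨j, hj, hjs⟩ := hP
        obtain ⟨e, he, hje⟩ := Finset.mem_biUnion.1 (Finset.mem_coe.1 hj)
        refine Finset.prod_eq_zero he ?_
        have : ¬ (opG G s P).Adj (ends e).1 (ends e).2 := by
          rintro ⟨_, h1, h2⟩
          rw [pr, Finset.mem_insert, Finset.mem_singleton] at hje
          rcases hje with rfl | rfl
          · exact hjs h1
          · exact hjs h2
        simp [wt, this]
    have hmeas : MeasurableSet (Set.pi (J : Set (V × V)) (fun _ => Set.Iic s)) :=
      MeasurableSet.pi (Finset.countable_toSet J) (fun _ _ => measurableSet_Iic)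
    have hvol : (iidLaw (V × V)) (Set.pi (J : Set (V × V)) (fun _ => Set.Iic s)) =
        ∏ e ∈ S', (ENNReal.ofReal s * ENNReal.ofReal s) := by
      rw [iidLaw, Measure.infinitePi_pi _ (fun _ _ => measurableSet_Iic), hJ,
        Finset.prod_biUnion (pr_disj S')]
      refine Finset.prod_congr rfl fun e _ => ?_
      rw [pr, Finset.prod_pair (ends_ne_swap e), unitInterval.volume_Iic]
    simp_rw [hpt]
    rw [integral_indicator_const _ hmeas, measureReal_def, hvol, ENNReal.toReal_prod]
    simp only [ENNReal.toReal_mul, ENNReal.toReal_ofReal s.2.1, mom, smul_eq_mul]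
    simp only [Finset.prod_const]
    ring

end Vale.Agent.Lib.P161
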