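import Vale.Agent.Lib.P161.Mono.Inner
import Vale.Agent.Lib.P161.Mono.Outer
import Vale.Agent.Lib.P161.Mono.MeasFld
import Vale.Agent.Lib.P161.Mono.Moments

namespace Vale.Agent.Lib.P161

open MeasureTheory ProbabilityTheory

variable {V : Type*} {G : SimpleGraph V}
variable {e : V → ℕ} {s : unitInterval}

private lemma measurable_sg : Measurable sg := Measurable.of_discrete

private lemma abs_sg (b : Bool) : |sg b| = 1 := by
  cases b <;> simp [sg]

private lemma norm_prod_sg_le {ι : Type*} (S : Finset ι) (b : ι → Bool) :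
    ‖∏ i ∈ S, sg (b i)‖ ≤ 1 := by
  rw [Real.norm_eq_abs, Finset.abs_prod]
  simp [abs_sg]

private instance instProbIdeal (V : Type*) : IsProbabilityMeasure (idealLaw V) := by
  unfold idealLaw; infer_instance

private lemma measurable_chi [Countable V] (hfin : FinBalls G)
    (he : Function.Injective e) {Φ : (V → unitInterval) → V → Bool} (hΦ : Measurable Φ) (o : V)
    (S : Finset (Option G.edgeSet)) :
    Measurable (fun x : Ideal V => ∏ i ∈ S, sg (obs G o i (Psi G e s Φ x))) := by
  refine Finset.measurable_prod S fun i _ => ?_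
  exact measurable_sg.comp ((measurable_obs G o i).comp (measurable_Psi hfin he hΦ))

theorem moments_Psi [Countable V] (hG : G.IsTree) (hfin : FinBalls G)
    (he : Function.Injective e) {Φ : (V → unitInterval) → V → Bool} (hΦ : Measurable Φ) {θ : ℝ}
    (h0 : 0 ≤ θ) (hν : IsFreeIsing G θ ((iidLaw V).map Φ)) (o : V)
    (S : Finset (Option G.edgeSet)) :
    ∫ x, ∏ i ∈ S, sg (obs G o i (Psi G e s Φ x)) ∂(idealLaw V) =
      ∏ i ∈ S, mom ((s : ℝ) * s * θ) i := by
  have hm := measurable_chi (G := G) (e := e) (s := s) hfin he hΦ o S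
  have hint : Integrable (fun x : Ideal V => ∏ i ∈ S, sg (obs G o i (Psi G e s Φ x)))
      ((iidLaw V).prod ((iidLaw (V × V)).prod (iidLaw (V × V)))) :=
    Integrable.of_bound hm.aestronglyMeasurable 1
      (Filter.Eventually.of_forall fun x => norm_prod_sg_le S _)
  have hint2 : ∀ A : V → unitInterval,
      Integrable (fun y : (V × V → unitInterval) × (V × V → unitInterval) =>
        ∏ i ∈ S, sg (obs G o i (Psi G e s Φ (A, y))))
      ((iidLaw (V × V)).prod (iidLaw (V × V))) := fun A =>
    Integrable.of_bound (hm.comp measurable_prodMk_left).aestronglyMeasurable 1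
      (Filter.Eventually.of_forall fun x => norm_prod_sg_le S _)
  unfold idealLaw
  rw [integral_prod _ hint]
  have h1 : ∀ A : V → unitInterval,
      ∫ y, ∏ i ∈ S, sg (obs G o i (Psi G e s Φ (A, y)))
        ∂((iidLaw (V × V)).prod (iidLaw (V × V))) = ∏ i ∈ S, mom ((s : ℝ) * s * θ) i := by
    intro A
    rw [integral_prod _ (hint2 A)]
    have h2 : ∀ P : V × V → unitInterval,
        ∫ Fd, ∏ i ∈ S, sg (obs G o i (Psi G e s Φ (A, P, Fd))) ∂(iidLaw (V × V)) =
          ∏ i ∈ S, wt G s P θ i := fun P => inner_value hG hfin he hΦ h0 hν A P o S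
    simp only [h2]
    exact outer_value θ S
  simp only [h1]
  simp

theorem isFreeIsing_Psi [Countable V] (hG : G.IsTree) (hfin : FinBalls G)
    (he : Function.Injective e) {Φ : (V → unitInterval) → V → Bool} (hΦ : Measurable Φ) {θ : ℝ}
    (h0 : 0 ≤ θ) (hν : IsFreeIsing G θ ((iidLaw V).map Φ)) :
    IsFreeIsing G ((s : ℝ) * s * θ) ((idealLaw V).map (Psi G e s Φ)) := by
  have hΨ : Measurable (Psi G e s Φ) := measurable_Psi hfin he hΦ
  have hprob : IsProbabilityMeasure ((idealLaw V).map (Psi G e s Φ)) :=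
    Measure.isProbabilityMeasure_map hΨ.aemeasurable
  refine ⟨hprob, fun o => ?_⟩
  have hmom : ∀ S : Finset (Option G.edgeSet),
      ∫ σ, ∏ i ∈ S, sg (obs G o i σ) ∂((idealLaw V).map (Psi G e s Φ)) =
        ∏ i ∈ S, mom ((s : ℝ) * s * θ) i := by
    intro S
    have hmeas : Measurable (fun σ : V → Bool => ∏ i ∈ S, sg (obs G o i σ)) :=
      Finset.measurable_prod S fun i _ => measurable_sg.comp (measurable_obs G o i)
    rw [integral_map hΨ.aemeasurable hmeas.aestronglyMeasurable]
    exact moments_Psi hG hfin he hΦ h0 hν o S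
  obtain ⟨hind, hmarg⟩ := indep_of_moments ((idealLaw V).map (Psi G e s Φ)) (obs G o)
    (measurable_obs G o) (mom ((s : ℝ) * s * θ)) hmom
  refine ⟨hind, ?_, fun ed => ?_⟩
  · have := hmarg none
    simpa [mom] using this
  · have := hmarg (some ed)
    simpa [mom] using this

end Vale.Agent.Lib.P161
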