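import Vale.Agent.Lib.P161.Mono.MeasKey

namespace Vale.Agent.Lib.P161

open MeasureTheory ProbabilityTheory

variable {V : Type*} {G : SimpleGraph V}
variable {e : V → ℕ} {s : unitInterval}

private theorem measurable_pick (hfin : FinBalls G) (w c : V) (φ : ℕ → ℕ) :
    Measurable (fun x : (V → unitInterval) × (V × ℕ → unitInterval) =>
      x.2 (w, φ (rk G e x.1 w c))) := by
  have hF : Measurable (fun y : ((V → unitInterval) × (V × ℕ → unitInterval)) × ℕ =>
      y.1.2 (w, φ y.2)) := by
    apply measurable_from_prod_countable_left
    intro k
    exact (measurable_pi_apply (w, φ k)).comp measurable_snd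
  exact hF.comp (measurable_id.prodMk ((measurable_rk hfin w c).comp measurable_fst))

theorem measurable_pairLab (hfin : FinBalls G) :
    Measurable (fun x : (V → unitInterval) × (V × ℕ → unitInterval) => pairLab G e x.1 x.2) := by
  unfold pairLab
  apply Measurable.prodMk
  · apply measurable_pi_lambda
    intro p
    exact measurable_pick hfin p.1 p.2 (fun k => 2 * k)
  · apply measurable_pi_lambda
    intro p
    exact measurable_pick hfin p.1 p.2 (fun k => 2 * k + 1)

theorem measurable_lab (hfin : FinBalls G) : Measurable (lab G e) := by
  have hA : Measurable (labA : (V × ℕ → unitInterval) → V → unitInterval) := by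
    apply measurable_pi_lambda
    intro v
    exact measurable_pi_apply (v, 0)
  have hR : Measurable (labR : (V × ℕ → unitInterval) → V × ℕ → unitInterval) := by
    apply measurable_pi_lambda
    intro p
    exact measurable_pi_apply (p.1, p.2 + 1)
  exact hA.prodMk ((measurable_pairLab hfin).comp (hA.prodMk hR))

end Vale.Agent.Lib.P161
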