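import Vale.Agent.Lib.P161.Mono.Rank

namespace Vale.Agent.Lib.P161

open MeasureTheory ProbabilityTheory

variable {V : Type*} {G : SimpleGraph V}
variable {e : V → ℕ} {s : unitInterval}

theorem map_pairLab (hfin : FinBalls G) (he : Function.Injective e) (A : V → unitInterval) :
    (iidLaw (V × ℕ)).map (pairLab G e A) = (iidLaw (V × V)).prod (iidLaw (V × V)) := by
  let φ : (V × V) × Bool → V × ℕ :=
    fun q => (q.1.1, 2 * rk G e A q.1.1 q.1.2 + (if q.2 then 1 else 0))
  have hφ : Function.Injective φ := by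
    rintro ⟨⟨a, b⟩, c⟩ ⟨⟨a', b'⟩, c'⟩ h
    simp only [φ, Prod.mk.injEq] at h
    obtain ⟨h1, h2⟩ := h
    subst h1
    have h3 : rk G e A a b = rk G e A a b' ∧ c = c' := by
      cases c <;> cases c' <;> simp at h2 ⊢ <;> omega
    have h4 := rk_injective hfin he A a h3.1
    rw [h4, h3.2]
  have h1 : (iidLaw (V × ℕ)).map (fun ω (q : (V × V) × Bool) => ω (φ q))
      = iidLaw ((V × V) × Bool) :=
    Measure.map_infinitePi_infinitePi_of_inj
      (P := fun _ : V × ℕ => (volume : Measure unitInterval)) hφ
  have hr : Measurable (fun (ω : V × ℕ → unitInterval) (q : (V × V) × Bool) => ω (φ q)) := by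
    rw [measurable_pi_iff]
    intro q
    exact measurable_pi_apply _
  have hcomp : pairLab G e A
      = halves ∘ (fun (ω : V × ℕ → unitInterval) (q : (V × V) × Bool) => ω (φ q)) := by
    funext R
    simp [pairLab, halves, φ]
  rw [hcomp, ← Measure.map_map measurable_halves hr, h1, map_halves]

end Vale.Agent.Lib.P161
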