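import Vale.Agent.Lib.P161.Mono.Defs

namespace Vale.Agent.Lib.P161

open MeasureTheory ProbabilityTheory

variable {V : Type*} {G : SimpleGraph V}

/-- the two blocks of coordinates -/
private abbrev blk (V : Type*) (k : Bool) : Type _ := cond k (V × ℕ) V

/-- the embedding of the two blocks -/
private def phi0 : (Σ k : Bool, blk V k) → V × ℕ
  | ⟨false, v⟩ => ((show V from v), 0)
  | ⟨true, p⟩ => ((show V × ℕ from p).1, (show V × ℕ from p).2 + 1)

private theorem phi0_inj : Function.Injective (phi0 (V := V)) := by
  rintro ⟨a, x⟩ ⟨b, y⟩ h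
  cases a <;> cases b
  · simp only [phi0, Prod.mk.injEq, and_true] at h
    subst h
    rfl
  · simp [phi0] at h
  · simp [phi0] at h
  · obtain ⟨x1, x2⟩ := x
    obtain ⟨y1, y2⟩ := y
    simp only [phi0, Prod.mk.injEq, Nat.add_right_cancel_iff] at h
    obtain ⟨h1, h2⟩ := h
    subst h1
    subst h2
    rfl

theorem measurable_split0 :
    Measurable (fun X : V × ℕ → unitInterval => (labA X, labR X)) := by
  refine Measurable.prodMk ?_ ?_
  · rw [measurable_pi_iff]; intro v; exact measurable_pi_apply _
  · rw [measurable_pi_iff]; intro v; exact measurable_pi_apply _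

theorem map_split0 : (iidLaw (V × ℕ)).map (fun X => (labA X, labR X)) =
    (iidLaw V).prod (iidLaw (V × ℕ)) := by
  symm
  apply Measure.prod_eq
  intro s t hs ht
  rw [Measure.map_apply measurable_split0 (hs.prod ht)]
  have h := iidLaw_blocks (K := Bool) (κ := blk V) phi0 phi0_inj
    (fun k => match k with
      | false => s
      | true => t)
    (fun k => by cases k <;> assumption)
  have hset : (fun X : V × ℕ → unitInterval => (labA X, labR X)) ⁻¹' (s ×ˢ t) =
      {ω : V × ℕ → unitInterval | ∀ k : Bool, (fun g => ω (phi0 ⟨k, g⟩)) ∈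
        ((fun k => match k with
          | false => s
          | true => t : ∀ k : Bool, Set (blk V k → unitInterval)) k)} := by
    ext ω
    simp only [Set.mem_preimage, Set.mem_prod, Set.mem_ofPred_eq, Bool.forall_bool]
    rfl
  rw [hset, h]
  simp [mul_comm]

end Vale.Agent.Lib.P161
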