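import Vale.Agent.Lib.P161.Mono.Skew
import Vale.Agent.Lib.P161.Mono.Split0
import Vale.Agent.Lib.P161.Mono.Reindex
import Vale.Agent.Lib.P161.Mono.MeasLab

namespace Vale.Agent.Lib.P161

open MeasureTheory ProbabilityTheory

variable {V : Type*} {G : SimpleGraph V}
variable {e : V → ℕ} {s : unitInterval}

theorem map_lab (hfin : FinBalls G) (he : Function.Injective e) :
    (iidLaw (V × ℕ)).map (lab G e) = idealLaw V := by
  have hsplit : Measurable (fun X : V × ℕ → unitInterval => (labA X, labR X)) := by
    refine Measurable.prodMk ?_ ?_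
    · exact measurable_pi_lambda _ (fun v => measurable_pi_apply _)
    · exact measurable_pi_lambda _ (fun p => measurable_pi_apply _)
  have hpl := measurable_pairLab (G := G) (e := e) hfin
  have hcomp : lab G e = (fun p : (V → unitInterval) × (V × ℕ → unitInterval) =>
      (p.1, pairLab G e p.1 p.2)) ∘ (fun X => (labA X, labR X)) := rfl
  have h1 : IsProbabilityMeasure (iidLaw V) := by
    unfold iidLaw
    infer_instance
  have h2 : IsProbabilityMeasure (iidLaw (V × ℕ)) := by
    unfold iidLaw
    infer_instance
  have h3 : IsProbabilityMeasure (iidLaw (V × V)) := by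
    unfold iidLaw
    infer_instance
  rw [hcomp, ← Measure.map_map (measurable_fst.prodMk hpl) hsplit, map_split0]
  exact map_skew (iidLaw V) (iidLaw (V × ℕ)) ((iidLaw (V × V)).prod (iidLaw (V × V)))
    (fun x => pairLab G e x.1 x.2) hpl (fun A => map_pairLab hfin he A)

end Vale.Agent.Lib.P161
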