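import Vale.Agent.Lib.P161.Mono.Ball
import Vale.Agent.Lib.P161.Mono.MapLab
import Vale.Agent.Lib.P161.Mono.ActLab
import Vale.Agent.Lib.P161.Mono.Equiv
import Vale.Agent.Lib.P161.Mono.Law

namespace Vale.Agent.Lib.P161

open MeasureTheory ProbabilityTheory

variable {V : Type*} {G : SimpleGraph V}

/-- the set of parameters for which the free Ising measure is a factor of IID is downward closed -/
theorem freeIsingIsFIID_mono {d : ℕ} (hG : IsRegTree d G) {θ t : ℝ} (h0 : 0 ≤ θ) (ht0 : 0 ≤ t)
    (ht1 : t ≤ 1) (h : FreeIsingIsFIID G θ) : FreeIsingIsFIID G (t * θ) := by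
  obtain ⟨μ, hμ, Φ, hΦ, heq, rfl⟩ := h
  have hfin := finBalls_of_regTree hG
  have : Countable V := countable_of_regTree hG
  obtain ⟨e, he⟩ := exists_injective_nat V
  obtain ⟨τ, hτ, hmap⟩ := exists_split (F := ℕ)
  let s : unitInterval := ⟨Real.sqrt t, Real.sqrt_nonneg t, Real.sqrt_le_one.mpr ht1⟩
  have hs : (s : ℝ) * s = t := Real.mul_self_sqrt ht0
  have hI := isFreeIsing_Psi (e := e) (s := s) hG.1 hfin he hΦ h0 hμ
  rw [hs] at hI
  have hmΨ := measurable_Psi (G := G) (e := e) (s := s) hfin he hΦ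
  have hml := measurable_lab (G := G) (e := e) hfin
  have hms := measurable_spl (W := V) hτ
  have hlaw1 : (iidLaw V).map (fun U => lab G e (spl τ U)) = idealLaw V := by
    have h1 : (fun U => lab G e (spl τ U)) = lab G e ∘ spl τ := rfl
    rw [h1, ← Measure.map_map hml hms, map_spl hτ hmap, map_lab hfin he]
  refine ⟨(idealLaw V).map (Psi G e s Φ), hI, fun U => Psi G e s Φ (lab G e (spl τ U)),
    hmΨ.comp (hml.comp hms), ?_, ?_⟩
  · intro g
    have h1 := Psi_equivariant (s := s) hfin he hΦ heq g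
    rw [← hlaw1] at h1
    have h2 := ae_of_ae_map (hml.comp hms).aemeasurable h1
    filter_upwards [h2] with U hU
    have hinj : Function.Injective (labA (spl τ U)) := hU.1
    rw [spl_actN, lab_actN g _ hinj]
    exact hU.2
  · have hmc : Measurable (fun U => lab G e (spl τ U)) := hml.comp hms
    rw [← hlaw1, Measure.map_map hmΨ hmc]
    rfl

end Vale.Agent.Lib.P161
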