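import Vale.Agent.Lib.P161.Mono.Defs

namespace Vale.Agent.Lib.P161

open MeasureTheory ProbabilityTheory

variable {V : Type*} {G : SimpleGraph V}
variable {e : V → ℕ} {s : unitInterval}

theorem key_injective (he : Function.Injective e) (A : V → unitInterval) (w : V) :
    Function.Injective (key G e A w) := by
  intro c1 c2 h
  unfold key at h
  have h1 := toLex.injective h
  have h2 := (Prod.mk.injEq _ _ _ _).mp h1
  have h3 := toLex.injective h2.2
  have h4 := (Prod.mk.injEq _ _ _ _).mp h3
  exact he h4.2

theorem finite_key_lt (hfin : FinBalls G) (A : V → unitInterval) (w c : V) :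
    {c' | key G e A w c' < key G e A w c}.Finite := by
  apply (hfin w (G.dist w c)).subset
  intro c' hc'
  have h : key G e A w c' < key G e A w c := hc'
  unfold key at h
  rw [Prod.Lex.toLex_lt_toLex] at h
  rcases h with h | h
  · exact h.le
  · exact h.1.le

theorem rk_injective (hfin : FinBalls G) (he : Function.Injective e) (A : V → unitInterval)
    (w : V) : Function.Injective (rk G e A w) := by
  have key_lt : ∀ c1 c2 : V, key G e A w c1 < key G e A w c2 →
      rk G e A w c1 < rk G e A w c2 := by
    intro c1 c2 h
    unfold rk
    apply Set.ncard_lt_ncard _ (finite_key_lt hfin A w c2)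
    constructor
    · intro c' hc'
      exact lt_trans hc' h
    · intro hsub
      have h1 : c1 ∈ {c' | key G e A w c' < key G e A w c1} := hsub h
      have h2 : key G e A w c1 < key G e A w c1 := h1
      exact lt_irrefl _ h2
  intro c1 c2 h
  by_contra hne
  have hk : key G e A w c1 ≠ key G e A w c2 := fun hh => hne (key_injective he A w hh)
  rcases lt_or_gt_of_ne hk with h1 | h1
  · exact absurd h (key_lt c1 c2 h1).ne
  · exact absurd h (key_lt c2 c1 h1).ne'

end Vale.Agent.Lib.P161
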