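import Vale.Agent.Lib.P161.Mono.Defs

namespace Vale.Agent.Lib.P161

open MeasureTheory ProbabilityTheory

variable {V : Type*} {G : SimpleGraph V}

/-- in a forest every edge is crossed by a two-colouring that no other edge crosses -/
theorem exists_test (hG : G.IsAcyclic) {u v : V} (huv : G.Adj u v) (o : V) :
    ∃ σ : V → Bool, σ o = true ∧ σ u ≠ σ v ∧
      ∀ x y, G.Adj x y → s(x, y) ≠ s(u, v) → σ x = σ y := by
  classical
  set G' : SimpleGraph V := G.deleteEdges {s(u, v)} with hG'
  have hbr : ¬ G'.Reachable u v :=
    SimpleGraph.isBridge_iff.mp (SimpleGraph.isAcyclic_iff_forall_adj_isBridge.mp hG huv)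
  let τ : V → Bool := fun x => decide (G'.Reachable v x)
  have hv : τ v = true := by
    simp only [τ, decide_eq_true_eq]
    exact SimpleGraph.Reachable.refl v
  have hu : τ u = false := by
    simp only [τ, decide_eq_false_iff_not]
    exact fun h => hbr h.symm
  refine ⟨fun x => τ x == τ o, by simp, ?_, ?_⟩
  · simp only [hu, hv]
    cases τ o <;> simp
  · intro x y hxy hne
    have hadj : G'.Adj x y := by
      rw [hG', SimpleGraph.deleteEdges_adj]
      exact ⟨hxy, fun h => hne (Set.mem_singleton_iff.mp h)⟩
    have hτ : τ x = τ y := by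
      simp only [τ]
      congr 1
      exact propext ⟨fun h => h.trans hadj.reachable, fun h => h.trans hadj.symm.reachable⟩
    simp only [hτ]

end Vale.Agent.Lib.P161
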