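import Vale.Agent.Lib.P161.Mono.MonoBasic

namespace Vale.Agent.Lib.P161

open MeasureTheory ProbabilityTheory

variable {V : Type*} {G : SimpleGraph V}

theorem walk_prod (o : V) {x y : V} (h : G.Reachable x y) :
    ∃ L : List G.edgeSet, ∀ σ : V → Bool,
      sg (σ x) * sg (σ y) = (L.map (fun ed => sg (obs G o (some ed) σ))).prod := by
  obtain ⟨p⟩ := h
  induction p with
  | nil => exact ⟨[], fun σ => by simp [sg_mul_self]⟩
  | @cons u v w hadj p ih =>
    obtain ⟨L, hL⟩ := ih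
    refine ⟨(⟨s(u, v), hadj⟩ : G.edgeSet) :: L, fun σ => ?_⟩
    have h1 : sg (obs G o (some (⟨s(u, v), hadj⟩ : G.edgeSet)) σ) = sg (σ u) * sg (σ v) := by
      rw [sg_obs_some]
      have hs := ends_spec (⟨s(u, v), hadj⟩ : G.edgeSet)
      rcases Sym2.eq_iff.1 hs with ⟨a, b⟩ | ⟨a, b⟩
      · rw [a, b]
      · rw [a, b, mul_comm]
    rw [List.map_cons, List.prod_cons, h1, ← hL σ]
    have h2 := sg_mul_self (σ v)
    calc sg (σ u) * sg (σ w) = sg (σ u) * (sg (σ v) * sg (σ v)) * sg (σ w) := by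
          rw [h2, mul_one]
      _ = sg (σ u) * sg (σ v) * (sg (σ v) * sg (σ w)) := by ring

end Vale.Agent.Lib.P161
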